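import Mathlib

/-!
# Row 73 (S0098): a full group C⋆-algebra that does not embed into `O₂^ω`.  Definitions.

OUTLINE.  `G = ⟨t, a₀, a₁, a₂, d⟩` is a group of affine maps of `𝔽_p^ℤ` (`t` = shift, `d` =
translation by `δ₀`, `a_i = 1 + N_i`).  Any two of `a₀, a₁, a₂, d` generate a Heisenberg group mod
`p`, which gives a spectral gap (`Gap`).  `H = ⟨a₀, a₁, a₂, d⟩` acts on the finite sets
`XX k = 𝔽_p^k` (`α k`), and `ζ k` = translation by the last basis vector is central.
For an asymptotic representation `U n` of `G` consider the energy `qX k` of `U n ⊗ α k`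
on functions `XX k → K` (with a penalty for the `ζ k`-invariant part).  Low energy vectors exist at
level `1`; conjugating by `t` and inducing moves them from level `k` to level `k + 1`, and the
errors do not accumulate because of the spectral gap (ultraproduct, `Ultra`, `Main`).  But for
contractions in `O₂` the energy is bounded below at high levels (`Nuc`, `Fin`, `Red`).
-/

set_option autoImplicit false

namespace Crest.Agent.R73

open Filter Topology Finset
open scoped InnerProductSpace commutatorElement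

/-- labels of the generators: `none ↦ d`, `some i ↦ a_i` -/
abbrev ι := Option (ZMod 3)

section rep

variable {V : Type*} [NormedAddCommGroup V] [InnerProductSpace ℂ V] {𝒢 : Type*} [Group 𝒢]

/-- unitary representation on an inner product space -/
structure URep (𝒢 V : Type*) [Group 𝒢] [NormedAddCommGroup V] [InnerProductSpace ℂ V] where
  R : 𝒢 →* Module.End ℂ V
  adj : ∀ g x y, ⟪R g x, y⟫_ℂ = ⟪x, R g⁻¹ y⟫_ℂ

/-- average over the cyclic group generated by `g` -/
noncomputable def URep.P (ρ : URep 𝒢 V) (p : ℕ) (g : 𝒢) : Module.End ℂ V :=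
  (p : ℂ)⁻¹ • ∑ j ∈ range p, ρ.R (g ^ j)

/-- the energy form -/
noncomputable def qf (p : ℕ) (T : ι → ℕ → V → V) (Z : ℕ → V → V) (x : V) : ℝ :=
  ∑ i, (‖x‖ ^ 2 - (p : ℝ)⁻¹ * ∑ j ∈ range p, (⟪x, T i j x⟫_ℂ).re) +
    (p : ℝ)⁻¹ * ∑ j ∈ range p, (⟪x, Z j x⟫_ℂ).re

/-- the energy form of a representation -/
noncomputable def URep.q (ρ : URep 𝒢 V) (p : ℕ) (s : ι → 𝒢) (z : 𝒢) (x : V) : ℝ :=
  qf p (fun i j => ρ.R (s i ^ j)) (fun j => ρ.R (z ^ j)) x

/-- the relations -/
structure Rel (p : ℕ) (s : ι → 𝒢) (z : 𝒢) : Prop where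
  pow : ∀ i, s i ^ p = 1
  zpow : z ^ p = 1
  heis : ∀ i j, Commute ⁅s i, s j⁆ (s j)
  comm : ∀ i, Commute z (s i)

end rep

section amp

variable {K : Type*} [NormedAddCommGroup K] [InnerProductSpace ℂ K] {X : Type*} [Fintype X]

/-- `ℓ²(X; K)` -/
abbrev L2 (X K : Type*) := PiLp 2 fun _ : X => K

/-- `T ⊗ β` -/
noncomputable def amp (T : K →L[ℂ] K) (β : Equiv.Perm X) : L2 X K →L[ℂ] L2 X K :=
  LinearMap.mkContinuous
    { toFun := fun ξ => WithLp.toLp 2 fun v => T (ξ (β⁻¹ v))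
      map_add' := fun ξ η => by ext v; simp
      map_smul' := fun c ξ => by ext v; simp } ‖T‖ fun ξ => by
    refine (sq_le_sq₀ (norm_nonneg _) (by positivity)).1 ?_
    rw [mul_pow, PiLp.norm_sq_eq_of_L2, PiLp.norm_sq_eq_of_L2, mul_sum,
      ← Equiv.sum_comp β⁻¹ fun v => ‖T‖ ^ 2 * ‖ξ v‖ ^ 2]
    refine sum_le_sum fun v _ => ?_
    rw [← mul_pow]
    exact pow_le_pow_left₀ (norm_nonneg _) (T.le_opNorm _) 2

@[simp] theorem amp_apply (T : K →L[ℂ] K) (β : Equiv.Perm X) (ξ : L2 X K) (v : X) :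
    amp T β ξ v = T (ξ (β⁻¹ v)) := rfl

theorem norm_amp_le (T : K →L[ℂ] K) (β : Equiv.Perm X) : ‖amp T β‖ ≤ ‖T‖ :=
  LinearMap.mkContinuous_norm_le _ (norm_nonneg _) _

theorem amp_sub (T T' : K →L[ℂ] K) (β : Equiv.Perm X) : amp (T - T') β = amp T β - amp T' β := by
  ext ξ v; simp

theorem amp_mul (T T' : K →L[ℂ] K) (β β' : Equiv.Perm X) :
    amp (T * T') (β * β') = amp T β * amp T' β' := by
  ext ξ v; rfl

theorem amp_one : amp (1 : K →L[ℂ] K) (1 : Equiv.Perm X) = 1 := by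
  ext ξ v; rfl

theorem inner_amp (T : K →L[ℂ] K) (β : Equiv.Perm X) (ξ η : L2 X K) :
    ⟪ξ, amp T β η⟫_ℂ = ∑ v, ⟪ξ v, T (η (β⁻¹ v))⟫_ℂ := by
  simp [PiLp.inner_apply]

theorem star_amp [CompleteSpace K] (T : K →L[ℂ] K) (β : Equiv.Perm X) :
    star (amp T β) = amp (star T) β⁻¹ := by
  rw [ContinuousLinearMap.star_eq_adjoint, eq_comm, ContinuousLinearMap.eq_adjoint_iff]
  intro ξ η
  rw [inner_amp, PiLp.inner_apply, ← Equiv.sum_comp β⁻¹]
  refine sum_congr rfl fun v _ => ?_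
  rw [amp_apply, inv_inv, show β (β⁻¹ v) = v from β.apply_symm_apply v,
    ContinuousLinearMap.star_eq_adjoint, ContinuousLinearMap.adjoint_inner_left]

end amp

section model

/-- three nilpotent maps with `N i N j = 0` unless `i = j + 1` -/
structure Sys (M : Type*) [AddCommGroup M] where
  N : ZMod 3 → M →+ M
  NN : ∀ i j, i ≠ j + 1 → ∀ v, N i (N j v) = 0

variable {M : Type*} [AddCommGroup M]

theorem Sys.NN_self (𝔰 : Sys M) (i : ZMod 3) (v : M) : 𝔰.N i (𝔰.N i v) = 0 :=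
  𝔰.NN i i (by revert i; decide) v

/-- `a_i = 1 + N_i` -/
def Sys.a (𝔰 : Sys M) (i : ZMod 3) : Equiv.Perm M where
  toFun v := v + 𝔰.N i v
  invFun v := v - 𝔰.N i v
  left_inv v := by simp [𝔰.NN_self]
  right_inv v := by simp [𝔰.NN_self]

/-- the generators -/
def Sys.gen (𝔰 : Sys M) (δ : M) : ι → Equiv.Perm M
  | none => Equiv.addRight δ
  | some i => 𝔰.a i

variable (p : ℕ)

/-- level `k` -/
abbrev XX (k : ℕ) := Fin k → ZMod p

/-- `N i` moves the coordinates `m ≡ i (mod 3)` one step up -/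
def sysX (k : ℕ) : Sys (XX p k) where
  N i :=
    { toFun := fun v m => if h : 0 < (m : ℕ) ∧ (((m : ℕ) - 1 : ℕ) : ZMod 3) = i then
        v ⟨m - 1, lt_of_le_of_lt (Nat.sub_le _ _) m.2⟩ else 0
      map_zero' := by ext m; simp
      map_add' := fun v w => by ext m; simp only [Pi.add_apply]; split_ifs <;> simp }
  NN i j hij v := by
    ext m
    simp only [AddMonoidHom.coe_mk, ZeroHom.coe_mk, Pi.zero_apply]
    split_ifs with h1 h2
    · exfalso
      apply hij
      rw [← h1.2, ← h2.2]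
      have : (m : ℕ) - 1 = (m : ℕ) - 1 - 1 + 1 := by have := h2.1; omega
      conv_lhs => rw [this]
      push_cast
      rfl
    · rfl
    · rfl

/-- basis vectors -/
def dl (k r : ℕ) : XX p k := fun m => if (m : ℕ) = r then 1 else 0

/-- the action of the generators on level `k` -/
def α (k : ℕ) : ι → Equiv.Perm (XX p k) := (sysX p k).gen (dl p k 0)

/-- the central translation -/
def ζ (k : ℕ) : Equiv.Perm (XX p k) := Equiv.addRight (dl p k (k - 1))

variable {p}

/-- `β'` extends `β` along `v ↦ cons 0 v` -/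
def Lift {k : ℕ} (β : Equiv.Perm (XX p k)) (β' : Equiv.Perm (XX p (k + 1))) : Prop :=
  (∀ v, β' v 0 = v 0) ∧ ∀ v, β' (Fin.cons 0 v) = Fin.cons 0 (β v)

variable [NeZero p] {K : Type*} [NormedAddCommGroup K] [InnerProductSpace ℂ K]

/-- the energy at level `k` -/
noncomputable def qX (k : ℕ) (T : ι → ℕ → K →L[ℂ] K) (ξ : L2 (XX p k) K) : ℝ :=
  qf p (fun i j => amp (T i j) (α p k i ^ j)) (fun j => amp 1 (ζ p k ^ j)) ξ

end model

end Crest.Agent.R73
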