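import Crest.Agent.R73.Model

/-!
# Row 73: invariant kernels have small operator norm (task R73-Fourier)

PLAN.  The set of `u` with `∀ v w, κ (v + u) (w + u) = κ v w` is a subgroup containing `dl 0`,
closed under `a i` hence under `N i`; so it is everything (`eq_top`) and `κ v w = c (v - w)`,
`c u = κ u 0`, `c (a i u) = c u`, `∑ j < p, c (u - j • dl (k-1)) = 0`.  Fourier transform over
`χ : AddChar (XX p k) ℂ`, `ĉ χ = ∑ u, c u * χ u` (orthogonality `AddChar.sum_apply_eq_ite`; Parseval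
`∑ χ, ‖ĥ χ‖² = card * ∑ ‖h u‖²`).  `ĉ χ = 0` if `χ (dl (k-1)) = 1`, `ĉ (χ ∘ a i) = ĉ χ`.
If `ĉ χ ≠ 0`, `𝒪 = {χ' | ĉ χ' = ĉ χ}` has at least `k` elements: the common kernel of `𝒪` is closed
under `N i` and misses `dl (k-1)`, so it is `⊥` (`eq_bot`), so `v ↦ (χ' v)_{χ' ∈ 𝒪}` is an injection
into `𝒪 → (p-th roots of unity)`: `p ^ k ≤ p ^ card 𝒪`.  So `k ‖ĉ χ‖² ≤ ∑ ‖ĉ‖² = ∑ v w, ‖κ v w‖²`.
Finally `∑ v w, c (v - w) f v g w = card⁻¹ ∑ χ, ĉ χ (∑ v, f v χ (-v)) (∑ w, g w χ w)`, Cauchy-Schwarz.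
-/

set_option autoImplicit false

namespace Crest.Agent.R73

open Filter Topology Finset
open scoped InnerProductSpace commutatorElement ComplexConjugate

section gen

variable {X : Type*} [AddCommGroup X] [Fintype X]

/-- Fourier transform -/
noncomputable def hat (h : X → ℂ) (χ : AddChar X ℂ) : ℂ := ∑ u, h u * χ u

theorem parseval (h : X → ℂ) :
    ∑ χ, ‖hat h χ‖ ^ 2 = Fintype.card X * ∑ u, ‖h u‖ ^ 2 := by
  classical
  apply Complex.ofReal_injective
  push_cast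
  simp only [← Complex.mul_conj', hat, map_sum, map_mul, sum_mul_sum, ← AddChar.map_neg_eq_conj]
  have e : ∀ (χ : AddChar X ℂ) u w, h u * χ u * (conj (h w) * χ (-w)) =
      h u * conj (h w) * χ (u - w) := fun χ u w => by
    rw [sub_eq_add_neg, AddChar.map_add_eq_mul]; ring
  simp only [e]
  rw [sum_comm, mul_sum]
  refine sum_congr rfl fun u _ => ?_
  rw [sum_comm]
  simp only [← mul_sum, AddChar.sum_apply_eq_ite, sub_eq_zero]
  simp [mul_comm]

theorem conv_eq (c f g : X → ℂ) : Fintype.card X * ∑ v, ∑ w, c (v - w) * (f v * g w) =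
    ∑ χ, hat c χ * (hat (fun v => f (-v)) χ * hat g χ) := by
  classical
  have e : ∀ (χ : AddChar X ℂ), hat c χ * (hat (fun v => f (-v)) χ * hat g χ) =
      ∑ v, ∑ w, ∑ u, c u * (f v * g w) * χ (u - (v - w)) := fun χ => by
    rw [hat, hat, hat, ← Equiv.sum_comp (Equiv.neg X) fun v => f (-v) * χ v, sum_mul_sum, mul_sum]
    refine sum_congr rfl fun v _ => ?_
    rw [mul_sum]
    refine sum_congr rfl fun w _ => ?_
    rw [sum_mul]
    refine sum_congr rfl fun u _ => ?_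
    rw [show u - (v - w) = u + (-v + w) by abel, AddChar.map_add_eq_mul, AddChar.map_add_eq_mul]
    simp only [Equiv.neg_apply, neg_neg]
    ring
  simp only [e]
  rw [eq_comm, sum_comm, mul_sum]
  refine sum_congr rfl fun v _ => ?_
  rw [sum_comm, mul_sum]
  refine sum_congr rfl fun w _ => ?_
  rw [sum_comm]
  simp only [← mul_sum, AddChar.sum_apply_eq_ite, sub_eq_zero]
  simp [mul_comm]

theorem conv_le (c f g : X → ℂ) {k C : ℝ} (hk : 0 ≤ k) (hC : 0 ≤ C)
    (h : ∀ χ, k * ‖hat c χ‖ ^ 2 ≤ C) :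
    k * ‖∑ v, ∑ w, c (v - w) * (f v * g w)‖ ^ 2 ≤ C * ((∑ v, ‖f v‖ ^ 2) * ∑ w, ‖g w‖ ^ 2) := by
  have hN : (0 : ℝ) < Fintype.card X := Nat.cast_pos.2 Fintype.card_pos
  have h1 : (Fintype.card X : ℝ) * ‖∑ v : X, ∑ w : X, c (v - w) * (f v * g w)‖ ≤
      ∑ χ : AddChar X ℂ, (‖hat c χ‖ * ‖hat (fun v => f (-v)) χ‖) * ‖hat g χ‖ := by
    rw [← Complex.norm_natCast (Fintype.card X), ← norm_mul, conv_eq]
    exact (norm_sum_le _ _).trans (le_of_eq (by simp only [norm_mul, mul_assoc]))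
  have h2 := (pow_le_pow_left₀ (by positivity) h1 2).trans (sum_mul_sq_le_sq_mul_sq _ _ _)
  have h3 : k * ∑ χ : AddChar X ℂ, (‖hat c χ‖ * ‖hat (fun v => f (-v)) χ‖) ^ 2 ≤
      C * (Fintype.card X * ∑ v, ‖f v‖ ^ 2) := by
    rw [← Equiv.sum_comp (Equiv.neg X) fun v => ‖f v‖ ^ 2, mul_sum]
    refine le_of_le_of_eq (sum_le_sum fun χ _ => ?_)
      ((mul_sum _ _ _).symm.trans (congrArg (C * ·) (parseval fun v => f (-v))))
    rw [mul_pow, ← mul_assoc]
    exact mul_le_mul_of_nonneg_right (h χ) (by positivity)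
  rw [parseval g] at h2
  refine le_of_mul_le_mul_left ?_ (pow_pos hN 2)
  have h4 := mul_le_mul_of_nonneg_left h2 hk
  have h5 := mul_le_mul_of_nonneg_right h3
    (show 0 ≤ Fintype.card X * ∑ w, ‖g w‖ ^ 2 by positivity)
  nlinarith

end gen

variable {p : ℕ} [Fact p.Prime] {k : ℕ}

theorem card_orbit (𝒪 : Finset (AddChar (XX p k) ℂ))
    (h : ∀ i, ∀ χ ∈ 𝒪, χ.compAddMonoidHom (AddMonoidHom.id _ + (sysX p k).N i) ∈ 𝒪)
    {χ : AddChar (XX p k) ℂ} (hχ : χ ∈ 𝒪) (h1 : χ (dl p k (k - 1)) ≠ 1) : k ≤ 𝒪.card := by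
  have hp := (Fact.out : p.Prime)
  let S : AddSubgroup (XX p k) :=
    { carrier := {u | ∀ χ ∈ 𝒪, χ u = 1}
      add_mem' := fun ha hb χ hχ => by rw [AddChar.map_add_eq_mul, ha χ hχ, hb χ hχ, one_mul]
      zero_mem' := fun χ _ => χ.map_zero_eq_one
      neg_mem' := fun ha χ hχ => by rw [AddChar.map_neg_eq_inv, ha χ hχ, inv_one] }
  have hS : S = ⊥ := eq_bot S (fun i u hu χ hχ => by
    have := hu _ (h i χ hχ)
    rwa [AddChar.compAddMonoidHom_apply, AddMonoidHom.add_apply, AddChar.map_add_eq_mul,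
      AddMonoidHom.id_apply, hu χ hχ, one_mul] at this) fun h => h1 (h χ hχ)
  let F : XX p k → 𝒪 → Polynomial.nthRootsFinset p (1 : ℂ) := fun v χ =>
    ⟨χ.1 v, (Polynomial.mem_nthRootsFinset hp.pos _).2 (by
      rw [← AddChar.map_nsmul_eq_pow, show p • v = 0 by ext m; simp, AddChar.map_zero_eq_one])⟩
  have hF : Function.Injective F := fun v w hvw => by
    rw [← sub_eq_zero, ← AddSubgroup.mem_bot, ← hS]
    intro χ hχ
    have : χ v = χ w := congrArg Subtype.val (congrFun hvw ⟨χ, hχ⟩)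
    rw [AddChar.map_sub_eq_div, this, div_self]
    rw [← norm_ne_zero_iff, AddChar.norm_apply]
    exact one_ne_zero
  classical
  have h2 := Fintype.card_le_of_injective F hF
  rw [Fintype.card_fun, Fintype.card_fun, ZMod.card, Fintype.card_fin, Fintype.card_coe,
    Fintype.card_coe] at h2
  have h3 : (Polynomial.nthRootsFinset p (1 : ℂ)).card ≤ p := by
    rw [Polynomial.nthRootsFinset_def]
    exact (Multiset.toFinset_card_le _).trans (Polynomial.card_nthRoots _ _)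
  exact (Nat.pow_le_pow_iff_right hp.one_lt).1 (h2.trans (Nat.pow_le_pow_left h3 _))

theorem kernel_bound (κ : XX p k → XX p k → ℂ)
    (hinv : ∀ i v w, κ (α p k i v) (α p k i w) = κ v w)
    (hz : ∀ v w, ∑ j ∈ range p, κ ((ζ p k ^ j)⁻¹ v) w = 0) (f g : XX p k → ℂ) :
    k * ‖∑ v, ∑ w, κ v w * (f v * g w)‖ ^ 2 ≤
      (∑ v, ∑ w, ‖κ v w‖ ^ 2) * ((∑ v, ‖f v‖ ^ 2) * ∑ w, ‖g w‖ ^ 2) := by
  let S : AddSubgroup (XX p k) :=
    { carrier := {u | ∀ v w, κ (v + u) (w + u) = κ v w}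
      add_mem' := fun ha hb v w => by rw [← add_assoc, ← add_assoc, hb, ha]
      zero_mem' := fun v w => by rw [add_zero, add_zero]
      neg_mem' := fun ha v w => by rw [← ha]; simp }
  have hS : S = ⊤ := eq_top S (fun i u hu => by
    have : u + (sysX p k).N i u ∈ S := fun v w => by
      obtain ⟨v, rfl⟩ := ((sysX p k).a i).surjective v
      obtain ⟨w, rfl⟩ := ((sysX p k).a i).surjective w
      have e : ∀ v, (sysX p k).a i v + (u + (sysX p k).N i u) = (sysX p k).a i (v + u) :=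
        fun v => by simp only [Sys.a_apply, map_add]; abel
      rw [e, e]
      exact (hinv (some i) _ _).trans ((hu v w).trans (hinv (some i) _ _).symm)
    simpa using S.sub_mem this hu) (hinv none)
  obtain ⟨c, hc⟩ : ∃ c : XX p k → ℂ, ∀ v w, κ v w = c (v - w) := ⟨fun u => κ u 0, fun v w => by
    have : w ∈ S := hS ▸ AddSubgroup.mem_top w
    simpa using this (v - w) 0⟩
  have hca : ∀ i u, c ((sysX p k).a i u) = c u := fun i u => by
    have := hinv (some i) u 0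
    simpa [hc, α, Sys.gen, Sys.a_apply] using this
  have hcz : ∀ χ : AddChar (XX p k) ℂ, χ (dl p k (k - 1)) = 1 → hat c χ = 0 := fun χ hχ => by
    have h1 : ∀ j : ℕ, hat c χ = ∑ u, c ((ζ p k ^ j)⁻¹ u) * χ u := fun j => by
      rw [hat, ← Equiv.sum_comp (ζ p k ^ j)⁻¹]
      refine sum_congr rfl fun u _ => ?_
      obtain ⟨u, rfl⟩ := (ζ p k ^ j).surjective u
      rw [show (ζ p k ^ j)⁻¹ ((ζ p k ^ j) u) = u from (ζ p k ^ j).symm_apply_apply u, ζ,
        addRight_pow, AddChar.map_add_eq_mul, AddChar.map_nsmul_eq_pow, hχ, one_pow, mul_one]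
    have h2 : ∑ j ∈ range p, hat c χ = 0 := by
      rw [sum_congr rfl fun j _ => h1 j, sum_comm]
      refine sum_eq_zero fun u _ => ?_
      have := hz u 0
      simp only [hc, sub_zero] at this
      rw [← sum_mul, this, zero_mul]
    simpa [(Fact.out : p.Prime).ne_zero] using h2
  have hsum : ∑ v, ∑ w, ‖κ v w‖ ^ 2 = ∑ χ, ‖hat c χ‖ ^ 2 := by
    rw [parseval, sum_comm]
    simp only [hc]
    have e : ∀ w, ∑ v, ‖c (v - w)‖ ^ 2 = ∑ u, ‖c u‖ ^ 2 := fun w =>
      Equiv.sum_comp (Equiv.subRight w) fun u => ‖c u‖ ^ 2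
    simp [e]
  rw [hsum]
  simp only [hc]
  refine conv_le c f g (Nat.cast_nonneg k) (by positivity) fun χ => ?_
  by_cases h0 : hat c χ = 0
  · rw [h0, norm_zero]
    simpa using sum_nonneg fun χ _ => sq_nonneg _
  classical
  have h1 := card_orbit (univ.filter fun χ' => hat c χ' = hat c χ) (fun i χ' hχ' => by
    rw [mem_filter_univ] at hχ' ⊢
    rw [← hχ', hat, hat, ← Equiv.sum_comp ((sysX p k).a i) fun u => c u * χ' u]
    exact sum_congr rfl fun u _ => by rw [hca]; rfl) (χ := χ) (by simp) fun h => h0 (hcz χ h)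
  refine le_trans ?_ (sum_le_sum_of_subset_of_nonneg
    (subset_univ (univ.filter fun χ' => hat c χ' = hat c χ)) fun _ _ _ => sq_nonneg _)
  rw [sum_congr rfl fun χ' hχ' => by rw [(mem_filter.1 hχ').2], sum_const, nsmul_eq_mul]
  exact mul_le_mul_of_nonneg_right (Nat.cast_le.2 h1) (sq_nonneg _)

end Crest.Agent.R73
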