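import Crest.Agent.R73.Gap
import Crest.Agent.R73.Fourier

/-!
# Row 73: the energy is bounded below for finite dimensional coefficients (task R73-Fin)

PLAN.  `D = ∑ v, |ξ v⟩⟨ξ v|` is a symmetric endomorphism of `E`; `e c` = its
`eigenvectorBasis`, `ξc c v = ⟪e c, ξ v⟫`; the `ξc c` are mutually orthogonal in `ℓ²(X)`,
`l c = ‖ξc c‖`, `∑ l c² = ‖ξ‖²`, `μ c = (l c)⁻¹` (`0⁻¹ = 0`).
`η (v, w) = ∑ c, μ c * ξc c v * conj (ξc c w)` in `EuclideanSpace ℂ (X × X)` with the permutation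
representation `ρ` of `Perm X × Perm X` (`ρ (β, β') η (v, w) = η (β⁻¹ v, β'⁻¹ w)`),
`s i = (α i, α i)`, `z = (ζ, 1)` (`Rel` componentwise from `relX`).
`⟪η, ρ (β, β') η⟫ = ∑ c d, μ c μ d ⟪ξc c, β ξc d⟫ conj ⟪ξc c, β' ξc d⟫`.  So `‖η‖ = ‖ξ‖`, the penalty
terms of `η` and `ξ` agree, and by Cauchy-Schwarz / AM-GM with `T_{cd} = ⟪e c, T (e d)⟫`
(`∑ c d, l c l d |T_{cd}|² ≤ ∑ l c²`): `re ⟪ξ, (T ⊗ β) ξ⟫ ≤ (‖ξ‖² + re ⟪η, ρ (β, β) η⟫)/2`.
Hence `qX ξ ≥ q η / 2 ≥ (‖η‖² - ‖w‖²)/10` (`exists_proj`), and by `kernel_bound` (for `conj w`)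
`‖w‖² = re ⟪w, η⟫ ≤ ∑ c, μ c ‖w‖ (l c)²/√k ≤ ‖w‖ √(dim E / k) ‖ξ‖`.
-/

set_option autoImplicit false

namespace Crest.Agent.R73

open Filter Topology Finset
open scoped InnerProductSpace commutatorElement ComplexConjugate

section

variable {X : Type*} [Fintype X] {E : Type*} [NormedAddCommGroup E] [InnerProductSpace ℂ E]

theorem perm_inv_app {Y : Type*} (β : Equiv.Perm Y) (v : Y) : β⁻¹ (β v) = v := β.symm_apply_apply v

/-- the permutation representation on kernels -/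
noncomputable def kerRep (X : Type*) [Fintype X] :
    URep (Equiv.Perm X × Equiv.Perm X) (L2 (X × X) ℂ) where
  R :=
    { toFun := fun g => (amp (1 : ℂ →L[ℂ] ℂ) (Equiv.prodCongr g.1 g.2)).toLinearMap
      map_one' := by ext η q; rfl
      map_mul' := fun g h => by ext η q; rfl }
  adj g x y := by
    rw [PiLp.inner_apply, PiLp.inner_apply, ← Equiv.sum_comp (Equiv.prodCongr g.1 g.2)]
    refine sum_congr rfl fun q _ => ?_
    change ⟪x (g.1⁻¹ (g.1 q.1), g.2⁻¹ (g.2 q.2)), _⟫_ℂ = _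
    rw [perm_inv_app, perm_inv_app]
    rfl

theorem kerRep_apply (g : Equiv.Perm X × Equiv.Perm X) (η : L2 (X × X) ℂ) (v w : X) :
    (kerRep X).R g η (v, w) = η (g.1⁻¹ v, g.2⁻¹ w) := rfl

theorem exists_svd [FiniteDimensional ℂ E] (ξ : X → E) :
    ∃ (e : OrthonormalBasis (Fin (Module.finrank ℂ E)) ℂ E) (l : Fin (Module.finrank ℂ E) → ℝ)
      (u : Fin (Module.finrank ℂ E) → X → ℂ), (∀ c, 0 ≤ l c) ∧ (∀ c, ∑ v, ‖u c v‖ ^ 2 ≤ 1) ∧
      (∀ v, ξ v = ∑ c, (l c * u c v) • e c) ∧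
      ∀ c d, (l c * l d : ℂ) * ∑ v, conj (u c v) * u d v = if c = d then (l c * l d : ℂ) else 0 := by
  let D : E →ₗ[ℂ] E := ∑ v, (innerₛₗ ℂ (ξ v)).smulRight (ξ v)
  have hD' : ∀ x y, ⟪x, D y⟫_ℂ = ∑ v, ⟪ξ v, y⟫_ℂ * ⟪x, ξ v⟫_ℂ := fun x y => by
    simp [D, LinearMap.sum_apply, inner_sum, inner_smul_right]
  have hD : D.IsSymmetric := fun x y => by
    rw [← inner_conj_symm, hD', hD', map_sum]
    exact sum_congr rfl fun v _ => by rw [map_mul, inner_conj_symm, inner_conj_symm, mul_comm]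
  let e := hD.eigenvectorBasis rfl
  let l : Fin (Module.finrank ℂ E) → ℝ := fun c => √(∑ v, ‖⟪e c, ξ v⟫_ℂ‖ ^ 2)
  have hl : ∀ c, l c ^ 2 = ∑ v, ‖⟪e c, ξ v⟫_ℂ‖ ^ 2 := fun c =>
    Real.sq_sqrt (sum_nonneg fun _ _ => sq_nonneg _)
  have hu : ∀ c v, (l c : ℂ) * (((l c)⁻¹ : ℝ) * ⟪e c, ξ v⟫_ℂ) = ⟪e c, ξ v⟫_ℂ := fun c v => by
    by_cases h : l c = 0
    · have h1 := hl c
      rw [h, zero_pow two_ne_zero, eq_comm, sum_eq_zero_iff_of_nonneg fun _ _ => sq_nonneg _] at h1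
      have h2 := h1 v (mem_univ v)
      rw [pow_eq_zero_iff two_ne_zero, norm_eq_zero] at h2
      rw [h2, mul_zero, mul_zero]
    · rw [← mul_assoc, ← Complex.ofReal_mul, mul_inv_cancel₀ h, Complex.ofReal_one, one_mul]
  refine ⟨e, l, fun c v => ((l c)⁻¹ : ℝ) * ⟪e c, ξ v⟫_ℂ, fun c => Real.sqrt_nonneg _, fun c => ?_,
    fun v => ?_, fun c d => ?_⟩
  · simp only [norm_mul, mul_pow, Complex.norm_real, Real.norm_eq_abs, sq_abs]
    rw [← mul_sum, ← hl, ← mul_pow]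
    by_cases h : l c = 0
    · simp [h]
    · rw [inv_mul_cancel₀ h, one_pow]
  · simp only [hu]
    exact (e.sum_repr' (ξ v)).symm
  · have h1 : (l c * l d : ℂ) * ∑ v, conj ((((l c)⁻¹ : ℝ) : ℂ) * ⟪e c, ξ v⟫_ℂ) *
        ((((l d)⁻¹ : ℝ) : ℂ) * ⟪e d, ξ v⟫_ℂ) = ∑ v, conj ⟪e c, ξ v⟫_ℂ * ⟪e d, ξ v⟫_ℂ := by
      rw [mul_sum]
      refine sum_congr rfl fun v _ => ?_
      conv_rhs => rw [← hu c v, ← hu d v, map_mul, Complex.conj_ofReal]
      ring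
    rw [h1]
    split_ifs with h
    · subst h
      simp only [Complex.conj_mul']
      rw [← sq, ← Complex.ofReal_pow, hl]
      push_cast
      rfl
    · simp only [inner_conj_symm]
      rw [← hD', hD.apply_eigenvectorBasis, inner_smul_right, e.orthonormal.2 (Ne.symm h), mul_zero]

variable {n : Type*} [Fintype n] [DecidableEq n] (e : OrthonormalBasis n ℂ E) (l : n → ℝ)
  (u : n → X → ℂ)

/-- matrix elements -/
noncomputable def BB (β : Equiv.Perm X) (c d : n) : ℂ := ∑ v, conj (u c v) * u d (β⁻¹ v)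

/-- the kernel `(ξ ξ⋆)^{1/2}` -/
noncomputable def eta : L2 (X × X) ℂ :=
  WithLp.toLp 2 fun q => ∑ c, l c * (u c q.1 * conj (u c q.2))

omit [DecidableEq n] in
theorem inner_xi {ξ : L2 X E} (h : ∀ v, ξ v = ∑ c, (l c * u c v) • e c) (T : E →L[ℂ] E)
    (β : Equiv.Perm X) :
    ⟪ξ, amp T β ξ⟫_ℂ = ∑ c, ∑ d, (l c * l d : ℂ) * ⟪e c, T (e d)⟫_ℂ * BB u β c d := by
  simp only [inner_amp, h, map_sum, map_smul, sum_inner, inner_sum, inner_smul_left,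
    inner_smul_right, BB, mul_sum, map_mul, Complex.conj_ofReal]
  rw [sum_comm]
  simp only [sum_comm (s := (univ : Finset X))]
  rw [sum_comm]
  refine sum_congr rfl fun c _ => sum_congr rfl fun d _ => sum_congr rfl fun v _ => ?_
  ring

omit [DecidableEq n] in
theorem inner_eta' (w : L2 (X × X) ℂ) :
    ⟪w, eta l u⟫_ℂ = ∑ c, l c * ∑ v, ∑ v', conj (w (v, v')) * (u c v * conj (u c v')) := by
  simp only [PiLp.inner_apply, eta, RCLike.inner_apply', mul_sum, Fintype.sum_prod_type]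
  simp only [sum_comm (s := (univ : Finset X)) (t := (univ : Finset n))]
  refine sum_congr rfl fun c _ => sum_congr rfl fun v _ => sum_congr rfl fun v' _ => ?_
  ring

omit [DecidableEq n] in
theorem inner_eta (β β' : Equiv.Perm X) :
    ⟪eta l u, (kerRep X).R (β, β') (eta l u)⟫_ℂ =
      ∑ c, ∑ d, (l c * l d : ℂ) * conj (BB u β' c d) * BB u β c d := by
  rw [← inner_conj_symm, inner_eta', map_sum]
  refine sum_congr rfl fun c _ => ?_
  simp only [kerRep_apply, eta, map_mul, map_sum, Complex.conj_conj, Complex.conj_ofReal, BB,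
    mul_sum, sum_mul]
  simp only [sum_comm (s := (univ : Finset X)) (t := (univ : Finset n))]
  refine sum_congr rfl fun d _ => sum_congr rfl fun v _ => sum_congr rfl fun v' _ => ?_
  ring

omit [DecidableEq n] in
theorem sum_T_le [FiniteDimensional ℂ E] {T : E →L[ℂ] E} (hT : ‖T‖ ≤ 1) :
    ∑ c, ∑ d, l c * l d * ‖⟪e c, T (e d)⟫_ℂ‖ ^ 2 ≤ ∑ c, l c ^ 2 := by
  haveI := FiniteDimensional.complete ℂ E
  have h0 : ∀ {S : E →L[ℂ] E}, ‖S‖ ≤ 1 → ∀ c, ‖S (e c)‖ ^ 2 ≤ 1 := fun {S} hS c => by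
    have := S.le_opNorm (e c)
    rw [e.orthonormal.1, mul_one] at this
    exact pow_le_one₀ (norm_nonneg _) (this.trans hS)
  have h1 : ∀ d, ∑ c, ‖⟪e c, T (e d)⟫_ℂ‖ ^ 2 ≤ 1 := fun d => by
    rw [e.sum_sq_norm_inner_right]
    exact h0 hT d
  have h2 : ∀ c, ∑ d, ‖⟪e c, T (e d)⟫_ℂ‖ ^ 2 ≤ 1 := fun c => by
    simp only [← ContinuousLinearMap.adjoint_inner_left T]
    rw [e.sum_sq_norm_inner_left]
    exact h0 (by rwa [LinearIsometryEquiv.norm_map]) c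
  have h3 : ∑ c, ∑ d, l c ^ 2 * ‖⟪e c, T (e d)⟫_ℂ‖ ^ 2 ≤ ∑ c, l c ^ 2 :=
    sum_le_sum fun c _ => by
      rw [← mul_sum]
      exact mul_le_of_le_one_right (sq_nonneg _) (h2 c)
  have h4 : ∑ c, ∑ d, l d ^ 2 * ‖⟪e c, T (e d)⟫_ℂ‖ ^ 2 ≤ ∑ c, l c ^ 2 := by
    rw [sum_comm]
    exact sum_le_sum fun d _ => by
      rw [← mul_sum]
      exact mul_le_of_le_one_right (sq_nonneg _) (h1 d)
  have h5 : 2 * ∑ c, ∑ d, l c * l d * ‖⟪e c, T (e d)⟫_ℂ‖ ^ 2 ≤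
      ∑ c, ∑ d, l c ^ 2 * ‖⟪e c, T (e d)⟫_ℂ‖ ^ 2 + ∑ c, ∑ d, l d ^ 2 * ‖⟪e c, T (e d)⟫_ℂ‖ ^ 2 := by
    simp only [mul_sum, ← sum_add_distrib]
    refine sum_le_sum fun c _ => sum_le_sum fun d _ => ?_
    nlinarith [mul_nonneg (sq_nonneg (l c - l d)) (sq_nonneg ‖⟪e c, T (e d)⟫_ℂ‖)]
  linarith

/-- the reduction to a genuine representation -/
theorem exists_eta [FiniteDimensional ℂ E] (ξ : L2 X E) : ∃ η : L2 (X × X) ℂ, ‖η‖ ^ 2 = ‖ξ‖ ^ 2 ∧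
    (∀ β, ⟪η, (kerRep X).R (β, 1) η⟫_ℂ = ⟪ξ, amp 1 β ξ⟫_ℂ) ∧
    (∀ (T : E →L[ℂ] E) β, ‖T‖ ≤ 1 →
      (⟪ξ, amp T β ξ⟫_ℂ).re ≤ (‖ξ‖ ^ 2 + (⟪η, (kerRep X).R (β, β) η⟫_ℂ).re) / 2) ∧
    ∀ (w : L2 (X × X) ℂ) (C : ℝ), 0 ≤ C → (∀ f g : X → ℂ, ∑ v, ‖f v‖ ^ 2 ≤ 1 → ∑ v, ‖g v‖ ^ 2 ≤ 1 →
      ‖∑ v, ∑ v', conj (w (v, v')) * (f v * g v')‖ ≤ C) →
      ‖⟪w, η⟫_ℂ‖ ^ 2 ≤ Module.finrank ℂ E * ‖ξ‖ ^ 2 * C ^ 2 := by
  obtain ⟨e, l, u, h0, h1, h2, h3⟩ := exists_svd ξ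
  have h4 : ∀ β, ⟪eta l u, (kerRep X).R (β, 1) (eta l u)⟫_ℂ = ⟪ξ, amp 1 β ξ⟫_ℂ := fun β => by
    rw [inner_eta, inner_xi e l u h2]
    refine sum_congr rfl fun c _ => sum_congr rfl fun d _ => ?_
    congr 1
    have h5 := congrArg conj (h3 c d)
    rw [map_mul, map_mul, Complex.conj_ofReal, Complex.conj_ofReal] at h5
    refine h5.trans ?_
    rw [ContinuousLinearMap.one_apply, orthonormal_iff_ite.1 e.orthonormal]
    split_ifs <;> simp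
  have h5 : ‖ξ‖ ^ 2 = ∑ c, l c ^ 2 := by
    have h6 := inner_xi e l u h2 1 1
    rw [amp_one, ContinuousLinearMap.one_apply, inner_self_eq_norm_sq_to_K] at h6
    apply Complex.ofReal_injective
    push_cast
    refine h6.trans (sum_congr rfl fun c _ => ?_)
    simp only [ContinuousLinearMap.one_apply, orthonormal_iff_ite.1 e.orthonormal, mul_ite,
      ite_mul, mul_one, mul_zero, zero_mul, sum_ite_eq, mem_univ, if_true]
    exact (h3 c c).trans (by rw [if_pos rfl, sq])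
  refine ⟨eta l u, ?_, h4, fun T β hT => ?_, fun w C hC hw => ?_⟩
  · have h6 := h4 1
    rw [amp_one, ← Prod.one_eq_mk, map_one, Module.End.one_apply, ContinuousLinearMap.one_apply,
      inner_self_eq_norm_sq_to_K, inner_self_eq_norm_sq_to_K] at h6
    exact_mod_cast h6
  · have h6 := sum_T_le e l hT
    have h7 : 2 * (⟪ξ, amp T β ξ⟫_ℂ).re ≤ ∑ c, ∑ d, l c * l d * ‖⟪e c, T (e d)⟫_ℂ‖ ^ 2 +
        (⟪eta l u, (kerRep X).R (β, β) (eta l u)⟫_ℂ).re := by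
      rw [inner_eta, inner_xi e l u h2]
      simp only [Complex.re_sum, mul_sum, ← sum_add_distrib]
      refine sum_le_sum fun c _ => sum_le_sum fun d _ => ?_
      rw [mul_assoc (l c * l d : ℂ), mul_assoc (l c * l d : ℂ), Complex.conj_mul',
        ← Complex.ofReal_mul, Complex.re_ofReal_mul, ← Complex.ofReal_pow, ← Complex.ofReal_mul,
        Complex.ofReal_re]
      have h8 := Complex.re_le_norm (⟪e c, T (e d)⟫_ℂ * BB u β c d)
      rw [norm_mul] at h8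
      have h9 : 2 * (⟪e c, T (e d)⟫_ℂ * BB u β c d).re ≤
          ‖⟪e c, T (e d)⟫_ℂ‖ ^ 2 + ‖BB u β c d‖ ^ 2 := by
        nlinarith [sq_nonneg (‖⟪e c, T (e d)⟫_ℂ‖ - ‖BB u β c d‖)]
      nlinarith [mul_le_mul_of_nonneg_left h9 (mul_nonneg (h0 c) (h0 d))]
    linarith
  · have h6 : ‖⟪w, eta l u⟫_ℂ‖ ≤ (∑ c, l c) * C := by
      rw [inner_eta', sum_mul]
      refine (norm_sum_le _ _).trans (sum_le_sum fun c _ => ?_)
      rw [norm_mul, Complex.norm_real, Real.norm_of_nonneg (h0 c)]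
      exact mul_le_mul_of_nonneg_left (hw _ _ (h1 c) (by simpa using h1 c)) (h0 c)
    have h7 := sq_sum_le_card_mul_sum_sq (s := univ) (f := l)
    rw [card_univ, Fintype.card_fin, ← h5] at h7
    refine (pow_le_pow_left₀ (norm_nonneg _) h6 2).trans ?_
    rw [mul_pow]
    exact mul_le_mul_of_nonneg_right h7 (sq_nonneg _)

end

theorem fin_bound {p : ℕ} [Fact p.Prime] (hp : 25 ≤ p) {E : Type*} [NormedAddCommGroup E]
    [InnerProductSpace ℂ E] [FiniteDimensional ℂ E] (T : ι → ℕ → E →L[ℂ] E)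
    (hT : ∀ i j, ‖T i j‖ ≤ 1) {k : ℕ} (hk0 : 0 < k) (hk : 2 * Module.finrank ℂ E ≤ k)
    (ξ : L2 (XX p k) E) : 1 / 20 * ‖ξ‖ ^ 2 ≤ qX k T ξ := by
  obtain ⟨η, h1, h2, h3, h4⟩ := exists_eta ξ
  have hr0 := relX (p := p) k
  have hr : Rel p (fun i => (α p k i, α p k i)) (ζ p k, (1 : Equiv.Perm (XX p k))) :=
    ⟨fun i => Prod.ext (hr0.pow i) (hr0.pow i), Prod.ext hr0.zpow (one_pow p),
      fun i j => Prod.ext (hr0.heis i j) (hr0.heis i j),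
      fun i => Prod.ext (hr0.comm i) (Commute.one_left _)⟩
  obtain ⟨w, w1, w2, w3, w4⟩ := (kerRep (XX p k)).exists_proj hp hr η
  have hp0 : (0 : ℝ) < p := by exact_mod_cast (by omega : 0 < p)
  have hk' : (0 : ℝ) < k := by exact_mod_cast hk0
  have h5 := h4 w (‖w‖ / √k) (by positivity) fun f g hf hg => by
    have h6 := kernel_bound (fun v v' => conj (w (v, v'))) (fun i v v' => by
      have := congrArg (fun x : L2 (XX p k × XX p k) ℂ => x (α p k i v, α p k i v')) (w1 i)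
      simp only [kerRep_apply, perm_inv_app] at this
      rw [this]) (fun v v' => by
      have := congrArg (fun x : L2 (XX p k × XX p k) ℂ => x (v, v')) w2
      simp only [URep.P_apply, PiLp.smul_apply, smul_eq_mul, PiLp.zero_apply, mul_eq_zero,
        inv_eq_zero, Nat.cast_eq_zero, (by omega : p ≠ 0), false_or, WithLp.ofLp_sum,
        Finset.sum_apply, kerRep_apply, Prod.pow_mk, one_pow, inv_one,
        Equiv.Perm.one_apply] at this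
      rw [← map_sum, this.resolve_left (by omega), map_zero]) f g
    simp only [Complex.norm_conj] at h6
    rw [← Fintype.sum_prod_type' (fun v v' => ‖w (v, v')‖ ^ 2), ← PiLp.norm_sq_eq_of_L2] at h6
    refine (pow_le_pow_iff_left₀ (norm_nonneg _) (by positivity) two_ne_zero).1 ?_
    rw [div_pow, Real.sq_sqrt hk'.le, le_div_iff₀' hk']
    exact h6.trans (mul_le_of_le_one_right (sq_nonneg _)
      (mul_le_one₀ hf (sum_nonneg fun _ _ => sq_nonneg _) hg))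
  have h6 : ‖w‖ ^ 2 ≤ ‖ξ‖ ^ 2 / 2 := by
    have h7 : (‖w‖ ^ 2) ^ 2 ≤ ‖⟪w, η⟫_ℂ‖ ^ 2 :=
      pow_le_pow_left₀ (sq_nonneg _) (w3 ▸ Complex.re_le_norm _) 2
    rw [div_pow, Real.sq_sqrt hk'.le, ← mul_div_assoc, le_div_iff₀ hk'] at h5
    have h8 : 2 * (Module.finrank ℂ E : ℝ) ≤ k := by exact_mod_cast hk
    rcases (sq_nonneg ‖w‖).eq_or_lt with h9 | h9
    · rw [← h9]; positivity
    · refine le_of_mul_le_mul_right ?_ (mul_pos h9 hk')
      nlinarith [mul_le_mul_of_nonneg_right h7 hk'.le,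
        mul_le_mul_of_nonneg_right h8 (mul_nonneg (sq_nonneg ‖ξ‖) (sq_nonneg ‖w‖))]
  have h7 := (kerRep (XX p k)).re_inner_P_nonneg hr.zpow η
  have h8 : ∀ i, (‖η‖ ^ 2 - (p : ℝ)⁻¹ * ∑ j ∈ range p,
      (⟪η, (kerRep (XX p k)).R ((α p k i, α p k i) ^ j) η⟫_ℂ).re) / 2 ≤
      ‖ξ‖ ^ 2 - (p : ℝ)⁻¹ * ∑ j ∈ range p, (⟪ξ, amp (T i j) (α p k i ^ j) ξ⟫_ℂ).re := fun i => by
    have h9 := mul_le_mul_of_nonneg_left (sum_le_sum fun j (_ : j ∈ range p) =>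
      h3 (T i j) (α p k i ^ j) (hT i j)) (inv_pos.2 hp0).le
    rw [← sum_div, sum_add_distrib, sum_const, card_range, nsmul_eq_mul, ← mul_div_assoc, mul_add,
      inv_mul_cancel_left₀ hp0.ne'] at h9
    simp only [Prod.pow_mk]
    linarith
  have h9 := sum_le_sum fun i (_ : i ∈ univ) => h8 i
  rw [← sum_div] at h9
  simp only [URep.q, qf] at w4
  simp only [Prod.pow_mk, one_pow, h2] at w4 h7 h9
  simp only [qX, qf]
  linarith

end Crest.Agent.R73
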