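import Crest.Agent.R73.Defs

/-!
# Row 73: the spectral gap (task R73-Gap)

PLAN.  `P g` is a symmetric idempotent when `g ^ p = 1`.
*Heisenberg pair* `a, b`, `c = ⁅a, b⁆` commuting with `a, b` (so `a b = c b a`, `c ^ p = 1`);
`P = P a`, `R = P b`, `Z = P c` (commutes with `P, R`).  Claim
`2 re ⟪x - P x, x - R x⟫ ≥ -(1/5)(‖x - P x‖² + ‖x - R x‖²)`; both sides split along
`x = Z x + (x - Z x)`.
* On `c`-fixed vectors `P R x = R P x`, so `⟪x - P x, x - R x⟫ = ‖(1-P)(1-R)x‖² ≥ 0`.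
* If `Z x = 0`: for `u` with `a u = u`, `Z u = 0`, `0 < j < p`: `f l = ⟪u, c^l b^j u⟫` satisfies
  `f (l + j) = f l` (apply `a` to both sides) and `f (l + p) = f l`, so it is constant (`p` prime),
  and its average is `⟪Z u, _⟫ = 0`.  Hence `‖R u‖² = ‖u‖²/p`, `|⟪P x, R x⟫| ≤ ‖P x‖‖R x‖/5`,
  `S = ‖P x‖² + ‖R x‖² = re ⟪P x + R x, x⟫ ≤ (6/5) ‖x‖²`, and with `A = P + R`, `c = 1/5` the
  difference equals `‖(1 + c - A) x‖² + (1 - c) re ⟪(1 + c - A) x, x⟫ ≥ 0`.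
With `Δ = ∑ i, (1 - P (s i)) + P z` (five projections `Q`, the last commutes with the others):
`q x = re ⟪x, Δ x⟫ = ∑ ‖Q x‖²` and `‖Δ x‖² ≥ (1 - 4/5) q x`.
`fixed_of_min`: expand `q (x - τ Δ x) ≥ e ‖x - τ Δ x‖²` to get `‖Δ x‖² ≤ e²`, so `e/5 ≤ e²`.
`exists_proj`: `ζ` = orthogonal projection on `ker Δ`; `η - ζ = Δ x ∈ range Δ` and
`0 ≤ q (y - x/5) = q y - (2/5)‖y‖² + q x/25 ≤ q y - ‖y‖²/5` for `y = Δ x`.
-/

set_option autoImplicit false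

namespace Crest.Agent.R73

open Filter Topology Finset
open scoped InnerProductSpace commutatorElement ComplexConjugate

variable {V : Type*} [NormedAddCommGroup V] [InnerProductSpace ℂ V] {𝒢 : Type*} [Group 𝒢]
  {p : ℕ} (ρ : URep 𝒢 V) {s : ι → 𝒢} {z : 𝒢}

namespace URep

theorem R_mul (g h : 𝒢) (x : V) : ρ.R (g * h) x = ρ.R g (ρ.R h x) := by
  rw [map_mul, Module.End.mul_apply]

theorem inner_R_R (g : 𝒢) (x y : V) : ⟪ρ.R g x, ρ.R g y⟫_ℂ = ⟪x, y⟫_ℂ := by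
  rw [ρ.adj, ← R_mul, inv_mul_cancel, map_one, Module.End.one_apply]

theorem R_pow_of_fix {g : 𝒢} {x : V} (h : ρ.R g x = x) (j : ℕ) : ρ.R (g ^ j) x = x := by
  induction j with
  | zero => rw [pow_zero, map_one, Module.End.one_apply]
  | succ j ih => rw [pow_succ, R_mul, h, ih]

theorem re_self (x : V) : (⟪x, x⟫_ℂ).re = ‖x‖ ^ 2 := inner_self_eq_norm_sq (𝕜 := ℂ) x

theorem re_symm (x y : V) : (⟪x, y⟫_ℂ).re = (⟪y, x⟫_ℂ).re := inner_re_symm (𝕜 := ℂ) x y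

theorem norm_R (g : 𝒢) (x : V) : ‖ρ.R g x‖ = ‖x‖ := by
  rw [← sq_eq_sq₀ (norm_nonneg _) (norm_nonneg _), ← re_self, inner_R_R, re_self]

theorem P_apply (g : 𝒢) (x : V) :
    ρ.P p g x = (p : ℂ)⁻¹ • ∑ j ∈ range p, ρ.R (g ^ j) x := by
  simp [P, LinearMap.sum_apply]

theorem R_P {g : 𝒢} (hg : g ^ p = 1) (x : V) : ρ.R g (ρ.P p g x) = ρ.P p g x := by
  rw [P_apply, map_smul, map_sum]
  congr 1
  have h1 := sum_range_succ (fun j => ρ.R (g ^ j) x) p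
  have h2 := sum_range_succ' (fun j => ρ.R (g ^ j) x) p
  rw [h1, hg, pow_zero, add_left_inj] at h2
  rw [h2]
  exact sum_congr rfl fun j _ => by rw [← R_mul, pow_succ']

theorem R_P_comm {g h : 𝒢} (hc : Commute h g) (x : V) :
    ρ.R h (ρ.P p g x) = ρ.P p g (ρ.R h x) := by
  simp only [P_apply, map_smul, map_sum, ← R_mul, (hc.pow_right _).eq]

theorem P_P_comm {g h : 𝒢} (hc : Commute h g) (x : V) :
    ρ.P p h (ρ.P p g x) = ρ.P p g (ρ.P p h x) := by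
  rw [P_apply ρ h, P_apply ρ h, map_smul, map_sum]
  simp only [ρ.R_P_comm (hc.pow_left _)]

theorem P_of_fix [NeZero p] {g : 𝒢} {x : V} (h : ρ.R g x = x) : ρ.P p g x = x := by
  simp only [P_apply, ρ.R_pow_of_fix h, sum_const, card_range]
  rw [← Nat.cast_smul_eq_nsmul ℂ, smul_smul, inv_mul_cancel₀ (Nat.cast_ne_zero.2 (NeZero.ne p)),
    one_smul]

theorem inner_P_of [NeZero p] {g : 𝒢} {u y : V} (h : ∀ j, ⟪u, ρ.R (g ^ j) y⟫_ℂ = ⟪u, y⟫_ℂ) :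
    ⟪u, ρ.P p g y⟫_ℂ = ⟪u, y⟫_ℂ := by
  simp only [P_apply, inner_smul_right, inner_sum, h, sum_const, card_range, nsmul_eq_mul]
  rw [inv_mul_cancel_left₀ (Nat.cast_ne_zero.2 (NeZero.ne p))]

theorem inner_P_of_fix [NeZero p] {g : 𝒢} {u : V} (h : ρ.R g u = u) (y : V) :
    ⟪u, ρ.P p g y⟫_ℂ = ⟪u, y⟫_ℂ :=
  ρ.inner_P_of fun j => by
    conv_lhs => rw [← ρ.R_pow_of_fix h j]
    exact ρ.inner_R_R _ _ _

theorem P_symm [NeZero p] {g : 𝒢} (hg : g ^ p = 1) (x y : V) :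
    ⟪ρ.P p g x, y⟫_ℂ = ⟪x, ρ.P p g y⟫_ℂ := by
  rw [← ρ.inner_P_of_fix (p := p) (ρ.R_P hg x) y, ← inner_conj_symm,
    ρ.inner_P_of_fix (ρ.R_P hg y), inner_conj_symm]

theorem P_P [NeZero p] {g : 𝒢} (hg : g ^ p = 1) (x : V) : ρ.P p g (ρ.P p g x) = ρ.P p g x :=
  ρ.P_of_fix (ρ.R_P hg x)

theorem re_inner_P [NeZero p] {g : 𝒢} (hg : g ^ p = 1) (x : V) :
    (⟪x, ρ.P p g x⟫_ℂ).re = ‖ρ.P p g x‖ ^ 2 := by
  rw [← re_self, ρ.P_symm hg, ρ.P_P hg]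

theorem norm_sub_P_sq [NeZero p] {g : 𝒢} (hg : g ^ p = 1) (x : V) :
    ‖x - ρ.P p g x‖ ^ 2 = ‖x‖ ^ 2 - ‖ρ.P p g x‖ ^ 2 := by
  rw [norm_sub_sq (𝕜 := ℂ), RCLike.re_to_complex, ρ.re_inner_P hg]; ring

theorem inner_eq_zero_of_fix [NeZero p] {g : 𝒢} {u t : V} (hu : ρ.P p g u = 0)
    (ht : ρ.R g t = t) : ⟪u, t⟫_ℂ = 0 := by
  rw [← inner_conj_symm, ← ρ.inner_P_of_fix (p := p) ht, hu, inner_zero_right, map_zero]

theorem avg_re (g : 𝒢) (x : V) :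
    (p : ℝ)⁻¹ * ∑ j ∈ range p, (⟪x, ρ.R (g ^ j) x⟫_ℂ).re = (⟪x, ρ.P p g x⟫_ℂ).re := by
  rw [P_apply, inner_smul_right, inner_sum, ← Complex.ofReal_natCast, ← Complex.ofReal_inv,
    Complex.re_ofReal_mul, Complex.re_sum]

theorem norm_sub_P_le [NeZero p] {g : 𝒢} (hg : g ^ p = 1) (x : V) : ‖x - ρ.P p g x‖ ≤ ‖x‖ := by
  refine le_of_sq_le_sq ?_ (norm_nonneg _)
  rw [ρ.norm_sub_P_sq hg]
  exact sub_le_self _ (sq_nonneg _)

theorem P_P_mul [NeZero p] {a : 𝒢} (hz : z ^ p = 1) (hc : Commute a z) (x : V) :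
    ρ.P p z (ρ.P p (a * z) x) = ρ.P p z (ρ.P p a x) := by
  rw [P_apply ρ (a * z), P_apply ρ a, map_smul, map_smul, map_sum, map_sum]
  congr 1
  refine sum_congr rfl fun j _ => ?_
  rw [hc.mul_pow, (hc.pow_pow j j).eq, R_mul, ← ρ.R_P_comm ((Commute.refl z).pow_left j),
    ρ.R_pow_of_fix (ρ.R_P hz _)]

theorem mul_pow_eq {a d : 𝒢} (h : Commute ⁅a, d⁆ d) (j : ℕ) :
    a * d ^ j = ⁅a, d⁆ ^ j * d ^ j * a := by
  rw [← h.mul_pow, commutatorElement_def, inv_mul_cancel_right, conj_pow, inv_mul_cancel_right]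

theorem R_P_fix {a d : 𝒢} (h : Commute ⁅a, d⁆ d) {x : V} (ha : ρ.R a x = x)
    (hc : ρ.R ⁅a, d⁆ x = x) : ρ.R a (ρ.P p d x) = ρ.P p d x := by
  rw [P_apply, map_smul, map_sum]
  congr 1
  refine sum_congr rfl fun j _ => ?_
  rw [← R_mul, mul_pow_eq h, (h.pow_pow j j).eq, R_mul, R_mul, ha, ρ.R_pow_of_fix hc]

theorem map_P {V' : Type*} [NormedAddCommGroup V'] [InnerProductSpace ℂ V'] {𝒢' : Type*}
    [Group 𝒢'] (ρ' : URep 𝒢' V') (E : V →ₗ[ℂ] V') {g : 𝒢} {g' : 𝒢'}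
    (h : ∀ x, E (ρ.R g x) = ρ'.R g' (E x)) (x : V) : E (ρ.P p g x) = ρ'.P p g' (E x) := by
  have : ∀ (j : ℕ) x, E (ρ.R (g ^ j) x) = ρ'.R (g' ^ j) (E x) := fun j => by
    induction j with
    | zero => simp
    | succ j ih => intro x; rw [pow_succ, pow_succ, R_mul, R_mul, ih, h]
  simp only [P_apply, map_smul, map_sum, this]

theorem q_def (x : V) : ρ.q p s z x =
    ∑ i, (‖x‖ ^ 2 - (⟪x, ρ.P p (s i) x⟫_ℂ).re) + (⟪x, ρ.P p z x⟫_ℂ).re := by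
  simp only [q, qf, avg_re]

theorem q_eq_zero [NeZero p] {x : V} (h : ∀ i, ρ.R (s i) x = x) (hz : ρ.P p z x = 0) :
    ρ.q p s z x = 0 := by
  simp only [q_def, hz, ρ.P_of_fix (h _), re_self, inner_zero_right]
  simp

section pair

variable [Fact p.Prime] {a b : 𝒢}

theorem comm_pow (hb : b ^ p = 1) (h : Commute ⁅a, b⁆ b) : ⁅a, b⁆ ^ p = 1 := by
  have := mul_pow_eq h p
  rw [hb, mul_one, mul_one] at this
  exact (mul_eq_right.1 this.symm)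

theorem inner_pow_eq_zero (hb : b ^ p = 1) (h1 : Commute ⁅a, b⁆ a) (h2 : Commute ⁅a, b⁆ b) {u : V}
    (hu : ρ.R a u = u) (hz : ρ.P p ⁅a, b⁆ u = 0) {j : ℕ} (j0 : j ≠ 0) (jp : j < p) :
    ⟪u, ρ.R (b ^ j) u⟫_ℂ = 0 := by
  have hc := comm_pow hb h2
  set c := ⁅a, b⁆ with hcdef
  have hcj : (c ^ j) ^ p = 1 := by rw [← pow_mul, mul_comm, pow_mul, hc, one_pow]
  have e1 : ∀ k, ⟪u, ρ.R ((c ^ j) ^ k) (ρ.R (b ^ j) u)⟫_ℂ = ⟪u, ρ.R (b ^ j) u⟫_ℂ := fun k => by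
    induction k with
    | zero => rw [pow_zero, map_one, Module.End.one_apply]
    | succ k ih =>
      have e : a * ((c ^ j) ^ k * b ^ j) = (c ^ j) ^ (k + 1) * b ^ j * a := by
        rw [← mul_assoc a, ← ((h1.pow_left j).pow_left k).eq, mul_assoc, mul_pow_eq h2, pow_succ]
        simp only [mul_assoc, hcdef]
      rw [← ih, ← ρ.inner_R_R a u (ρ.R ((c ^ j) ^ k) _), hu, ← R_mul, ← R_mul, ← R_mul, mul_assoc,
        e, R_mul _ _ a, hu]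
  rw [← ρ.inner_P_of (p := p) e1]
  refine ρ.inner_eq_zero_of_fix hz ?_
  have hp : p.Prime := Fact.out
  obtain ⟨m, -, hm⟩ := Nat.exists_mul_mod_eq_one_of_coprime
    ((Nat.coprime_of_lt_prime j0 jp hp).symm) hp.one_lt
  have e2 : (c ^ j) ^ m = c := by
    rw [← pow_mul, ← Nat.div_add_mod (j * m) p, hm, pow_add, pow_mul, hc, one_pow, one_mul, pow_one]
  have := ρ.R_pow_of_fix (ρ.R_P hcj (ρ.R (b ^ j) u)) m
  rwa [e2] at this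

theorem norm_P_le (hp : 25 ≤ p) (hb : b ^ p = 1) (h1 : Commute ⁅a, b⁆ a) (h2 : Commute ⁅a, b⁆ b)
    {u : V} (hu : ρ.R a u = u) (hz : ρ.P p ⁅a, b⁆ u = 0) : ‖ρ.P p b u‖ ≤ ‖u‖ / 5 := by
  refine le_of_sq_le_sq ?_ (by positivity)
  rw [← ρ.re_inner_P hb, ← avg_re, sum_eq_single 0 (fun j hj j0 => by
    rw [ρ.inner_pow_eq_zero hb h1 h2 hu hz j0 (mem_range.1 hj), Complex.zero_re])
    (fun h => absurd (mem_range.2 (by omega)) h), pow_zero, map_one, Module.End.one_apply, re_self]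
  have h3 : (p : ℝ)⁻¹ ≤ 25⁻¹ := inv_anti₀ (by norm_num) (by exact_mod_cast hp)
  nlinarith [sq_nonneg ‖u‖]

theorem pair_zero (hp : 25 ≤ p) (ha : a ^ p = 1) (hb : b ^ p = 1) (h1 : Commute ⁅a, b⁆ a)
    (h2 : Commute ⁅a, b⁆ b) {w : V} (hz : ρ.P p ⁅a, b⁆ w = 0) :
    -(1 / 10) * (‖w - ρ.P p a w‖ ^ 2 + ‖w - ρ.P p b w‖ ^ 2) ≤
      (⟪w - ρ.P p a w, w - ρ.P p b w⟫_ℂ).re := by
  have n1 := ρ.norm_P_le hp hb h1 h2 (ρ.R_P ha w) (by rw [ρ.P_P_comm h1, hz, map_zero])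
  have n2 : (⟪ρ.P p a w, ρ.P p b w⟫_ℂ).re ≤ ‖ρ.P p a w‖ / 5 * ‖ρ.P p b w‖ := by
    rw [← ρ.P_P hb, ← ρ.P_symm hb, ρ.P_P hb]
    exact (Complex.re_le_norm _).trans ((norm_inner_le_norm _ _).trans
      (mul_le_mul_of_nonneg_right n1 (norm_nonneg _)))
  have n3 := sq_nonneg ‖((6 / 5 : ℝ) : ℂ) • w - (ρ.P p a w + ρ.P p b w)‖
  rw [norm_sub_sq (𝕜 := ℂ), norm_add_sq (𝕜 := ℂ), inner_smul_left, norm_smul, inner_add_right,
    Complex.conj_ofReal, Complex.norm_real] at n3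
  simp only [RCLike.re_to_complex, Complex.re_ofReal_mul, Complex.add_re, ρ.re_inner_P ha,
    ρ.re_inner_P hb, Real.norm_eq_abs, mul_pow, sq_abs] at n3
  rw [ρ.norm_sub_P_sq ha, ρ.norm_sub_P_sq hb, inner_sub_left, inner_sub_right, inner_sub_right]
  simp only [Complex.sub_re, re_self, ρ.re_inner_P hb, re_symm (ρ.P p a w) w, ρ.re_inner_P ha]
  nlinarith [sq_nonneg (‖ρ.P p a w‖ - ‖ρ.P p b w‖)]

theorem pair_fix (ha : a ^ p = 1) (hb : b ^ p = 1) (h1 : Commute ⁅a, b⁆ a)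
    (h2 : Commute ⁅a, b⁆ b) {y : V} (hy : ρ.R ⁅a, b⁆ y = y) :
    0 ≤ (⟪y - ρ.P p a y, y - ρ.P p b y⟫_ℂ).re := by
  set u := y - ρ.P p a y with hu
  have u0 : ρ.P p a u = 0 := by rw [hu, map_sub, ρ.P_P ha, sub_self]
  have e : y - ρ.P p b y = (u - ρ.P p b u) + (ρ.P p a y - ρ.P p b (ρ.P p a y)) := by
    rw [hu, map_sub]; abel
  have f1 : ρ.R a (ρ.P p a y - ρ.P p b (ρ.P p a y)) = ρ.P p a y - ρ.P p b (ρ.P p a y) := by
    rw [map_sub, ρ.R_P ha, ρ.R_P_fix h2 (ρ.R_P ha y) (by rw [ρ.R_P_comm h1, hy])]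
  rw [e, inner_add_right, ρ.inner_eq_zero_of_fix u0 f1, add_zero, inner_sub_right, Complex.sub_re,
    re_self, ρ.re_inner_P hb, ← ρ.norm_sub_P_sq hb]
  exact sq_nonneg _

theorem pair (hp : 25 ≤ p) (ha : a ^ p = 1) (hb : b ^ p = 1) (h1 : Commute ⁅a, b⁆ a)
    (h2 : Commute ⁅a, b⁆ b) (x : V) :
    -(1 / 10) * (‖x - ρ.P p a x‖ ^ 2 + ‖x - ρ.P p b x‖ ^ 2) ≤
      (⟪x - ρ.P p a x, x - ρ.P p b x⟫_ℂ).re := by
  have hc := comm_pow hb h2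
  have k1 := ρ.pair_fix ha hb h1 h2 (ρ.R_P hc x)
  have k2 := ρ.pair_zero hp ha hb h1 h2 (w := x - ρ.P p ⁅a, b⁆ x)
    (by rw [map_sub, ρ.P_P hc, sub_self])
  have e1 : ∀ g, Commute ⁅a, b⁆ g → ρ.P p ⁅a, b⁆ x - ρ.P p g (ρ.P p ⁅a, b⁆ x) =
      ρ.P p ⁅a, b⁆ (x - ρ.P p g x) := fun g hg => by rw [map_sub, ρ.P_P_comm hg]
  have e2 : ∀ g, Commute ⁅a, b⁆ g → x - ρ.P p ⁅a, b⁆ x - ρ.P p g (x - ρ.P p ⁅a, b⁆ x) =
      (x - ρ.P p g x) - ρ.P p ⁅a, b⁆ (x - ρ.P p g x) := fun g hg => by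
    rw [map_sub, map_sub, ρ.P_P_comm hg]; abel
  rw [e1 a h1, e1 b h2] at k1
  rw [e2 a h1, e2 b h2] at k2
  generalize x - ρ.P p a x = u at k1 k2 ⊢
  generalize x - ρ.P p b x = v at k1 k2 ⊢
  rw [ρ.norm_sub_P_sq hc, ρ.norm_sub_P_sq hc, inner_sub_left, inner_sub_right, inner_sub_right,
    ρ.P_symm hc, ρ.P_symm hc, ρ.P_P hc, sub_self, sub_zero, Complex.sub_re] at k2
  rw [ρ.P_symm hc, ρ.P_P hc] at k1
  nlinarith [sq_nonneg ‖ρ.P p ⁅a, b⁆ u‖, sq_nonneg ‖ρ.P p ⁅a, b⁆ v‖]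

end pair

/-- the Laplacian -/
noncomputable def Δ (p : ℕ) (s : ι → 𝒢) (z : 𝒢) : Module.End ℂ V :=
  ∑ i, (1 - ρ.P p (s i)) + ρ.P p z

theorem Δ_apply (x : V) : ρ.Δ p s z x = ∑ i, (x - ρ.P p (s i) x) + ρ.P p z x := by
  simp only [Δ, LinearMap.add_apply, LinearMap.sum_apply, LinearMap.sub_apply, Module.End.one_apply]

theorem q_eq_inner (x : V) : ρ.q p s z x = (⟪x, ρ.Δ p s z x⟫_ℂ).re := by
  simp only [q_def, Δ_apply, inner_add_right, inner_sum, inner_sub_right, Complex.add_re,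
    Complex.re_sum, Complex.sub_re, re_self]

theorem q_eq_sq [NeZero p] (hr : Rel p s z) (x : V) :
    ρ.q p s z x = ∑ i, ‖x - ρ.P p (s i) x‖ ^ 2 + ‖ρ.P p z x‖ ^ 2 := by
  simp only [q_def, ρ.norm_sub_P_sq (hr.pow _), ρ.re_inner_P (hr.pow _), ρ.re_inner_P hr.zpow]

theorem q_nonneg [NeZero p] (hr : Rel p s z) (x : V) : 0 ≤ ρ.q p s z x := by
  rw [ρ.q_eq_sq hr]; positivity

theorem Δ_symm [NeZero p] (hr : Rel p s z) (x y : V) :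
    ⟪ρ.Δ p s z x, y⟫_ℂ = ⟪x, ρ.Δ p s z y⟫_ℂ := by
  simp only [Δ_apply, inner_add_right, inner_sum, inner_sub_right, inner_add_left, sum_inner,
    inner_sub_left, ρ.P_symm (hr.pow _), ρ.P_symm hr.zpow]

theorem q_sub_smul [NeZero p] (hr : Rel p s z) (x y : V) (τ : ℝ) :
    ρ.q p s z (x - (τ : ℂ) • y) =
      ρ.q p s z x - 2 * τ * (⟪x, ρ.Δ p s z y⟫_ℂ).re + τ ^ 2 * ρ.q p s z y := by
  have e : (⟪y, ρ.Δ p s z x⟫_ℂ).re = (⟪x, ρ.Δ p s z y⟫_ℂ).re := by rw [re_symm, ρ.Δ_symm hr]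
  simp only [q_eq_inner, map_sub, map_smul, inner_sub_left, inner_sub_right, inner_smul_left,
    inner_smul_right, Complex.conj_ofReal, Complex.sub_re, Complex.re_ofReal_mul, e]
  ring

theorem fixed_of_q [NeZero p] (hr : Rel p s z) {x : V} (h : ρ.q p s z x = 0) :
    (∀ i, ρ.R (s i) x = x) ∧ ρ.P p z x = 0 := by
  rw [ρ.q_eq_sq hr, add_eq_zero_iff_of_nonneg (by positivity) (by positivity),
    sum_eq_zero_iff_of_nonneg fun _ _ => by positivity] at h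
  refine ⟨fun i => ?_, by simpa using h.2⟩
  have h1 : x = ρ.P p (s i) x := by simpa [sub_eq_zero] using h.1 i (mem_univ i)
  rw [h1, ρ.R_P (hr.pow i)]

theorem gap [Fact p.Prime] (hp : 25 ≤ p) (hr : Rel p s z) (x : V) :
    1 / 5 * ρ.q p s z x ≤ ‖ρ.Δ p s z x‖ ^ 2 := by
  have h1 : ∀ i j, (if i = j then ‖x - ρ.P p (s i) x‖ ^ 2 else 0) -
      (1 / 10) * (‖x - ρ.P p (s i) x‖ ^ 2 + ‖x - ρ.P p (s j) x‖ ^ 2) ≤
      (⟪x - ρ.P p (s i) x, x - ρ.P p (s j) x⟫_ℂ).re := fun i j => by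
    split_ifs with h
    · rw [← h, re_self]
      exact sub_le_self _ (by positivity)
    · have := ρ.pair hp (hr.pow i) (hr.pow j)
        (by rw [← commutatorElement_inv]; exact (hr.heis j i).inv_left) (hr.heis i j) x
      linarith
  have h2 := sum_le_sum fun i (_ : i ∈ univ) => sum_le_sum fun j (_ : j ∈ univ) => h1 i j
  have h3 : ∀ i, 0 ≤ (⟪x - ρ.P p (s i) x, ρ.P p z x⟫_ℂ).re := fun i => by
    rw [← ρ.P_P hr.zpow, ← ρ.P_symm hr.zpow, map_sub, ρ.P_P_comm (hr.comm i), re_symm,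
      inner_sub_right, Complex.sub_re, re_self, ρ.re_inner_P (hr.pow i),
      ← ρ.norm_sub_P_sq (hr.pow i)]
    exact sq_nonneg _
  have h4 := sum_nonneg fun i (_ : i ∈ univ) => h3 i
  have h5 : Fintype.card ι = 4 := rfl
  simp only [sum_sub_distrib, sum_ite_eq, mem_univ, if_true, ← mul_sum, sum_add_distrib, sum_const,
    card_univ, h5, nsmul_eq_mul, Nat.cast_ofNat] at h2
  rw [ρ.q_eq_sq hr, Δ_apply, norm_add_sq (𝕜 := ℂ), ← re_self (∑ i, _), sum_inner, sum_inner]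
  simp only [inner_sum, RCLike.re_to_complex, Complex.re_sum]
  nlinarith [sq_nonneg ‖ρ.P p z x‖]

theorem fixed_of_min [Fact p.Prime] (hp : 25 ≤ p) (hr : Rel p s z) {x : V} (hx : ‖x‖ = 1)
    (hq : ρ.q p s z x < 1 / 5) (hmin : ∀ y, ρ.q p s z x * ‖y‖ ^ 2 ≤ ρ.q p s z y) :
    (∀ i, ρ.R (s i) x = x) ∧ ρ.P p z x = 0 := by
  refine ρ.fixed_of_q hr ?_
  have e0 := ρ.q_nonneg hr x
  have g := ρ.gap hp hr x
  set e := ρ.q p s z x with he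
  set y := ρ.Δ p s z x with hy
  have key : ∀ τ : ℝ, 2 * τ * (‖y‖ ^ 2 - e ^ 2) ≤ τ ^ 2 * ρ.q p s z y := fun τ => by
    have h1 := hmin (x - (τ : ℂ) • y)
    rw [ρ.q_sub_smul hr, ← ρ.Δ_symm hr, ← hy, re_self, norm_sub_sq (𝕜 := ℂ), hx, inner_smul_right,
      RCLike.re_to_complex, Complex.re_ofReal_mul, hy, ← q_eq_inner, ← hy, ← he] at h1
    nlinarith [mul_nonneg e0 (sq_nonneg ‖(τ : ℂ) • y‖)]
  have h2 : ‖y‖ ^ 2 ≤ e ^ 2 := by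
    by_contra hlt
    have hA : 0 < ‖y‖ ^ 2 - e ^ 2 := by linarith
    have hC := ρ.q_nonneg hr y
    have hτ : 0 < (‖y‖ ^ 2 - e ^ 2) / (ρ.q p s z y + 1) := by positivity
    have h3 := key ((‖y‖ ^ 2 - e ^ 2) / (ρ.q p s z y + 1))
    have h4 : (‖y‖ ^ 2 - e ^ 2) / (ρ.q p s z y + 1) * (ρ.q p s z y + 1) = ‖y‖ ^ 2 - e ^ 2 :=
      div_mul_cancel₀ _ (by positivity)
    generalize (‖y‖ ^ 2 - e ^ 2) / (ρ.q p s z y + 1) = τ at hτ h3 h4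
    rw [← h4] at h3
    nlinarith [mul_pos hτ hτ, mul_nonneg (mul_pos hτ hτ).le hC]
  nlinarith

theorem exists_proj [FiniteDimensional ℂ V] [Fact p.Prime] (hp : 25 ≤ p) (hr : Rel p s z)
    (η : V) : ∃ w : V, (∀ i, ρ.R (s i) w = w) ∧ ρ.P p z w = 0 ∧ (⟪w, η⟫_ℂ).re = ‖w‖ ^ 2 ∧
      1 / 5 * (‖η‖ ^ 2 - ‖w‖ ^ 2) ≤ ρ.q p s z η := by
  have hs : (ρ.Δ p s z).IsSymmetric := ρ.Δ_symm hr
  let U : Submodule ℂ V := LinearMap.range (ρ.Δ p s z)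
  obtain ⟨x, hx⟩ : U.starProjection η ∈ U := U.starProjection_apply_mem η
  have hw : η - U.starProjection η ∈ Uᗮ := U.sub_starProjection_mem_orthogonal η
  rw [← hx] at hw
  set y := ρ.Δ p s z x with hy
  set w := η - y with hwdef
  have hη : η = y - ((-1 : ℝ) : ℂ) • w := by simp [hwdef]
  have o1 : ⟪y, w⟫_ℂ = 0 := hw y ⟨x, rfl⟩
  have o2 : ρ.Δ p s z w = 0 := by
    rw [hs.orthogonal_range] at hw
    exact hw
  have q0 : ρ.q p s z w = 0 := by rw [q_eq_inner, o2, inner_zero_right, Complex.zero_re]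
  have e1 : η = y + w := by simp [hwdef]
  refine ⟨w, (ρ.fixed_of_q hr q0).1, (ρ.fixed_of_q hr q0).2, ?_, ?_⟩
  · rw [e1, inner_add_right, Complex.add_re, re_self, re_symm, o1, Complex.zero_re, zero_add]
  · have e2 : ρ.q p s z η = ρ.q p s z y := by
      rw [hη, ρ.q_sub_smul hr, o2, q0, inner_zero_right]; simp
    have e3 : ‖η‖ ^ 2 = ‖y‖ ^ 2 + ‖w‖ ^ 2 := by
      rw [e1, norm_add_sq (𝕜 := ℂ), o1]; simp
    have e4 := ρ.q_nonneg hr (y - ((1 / 5 : ℝ) : ℂ) • x)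
    rw [ρ.q_sub_smul hr, ← hy, re_self] at e4
    have e5 := ρ.gap hp hr x
    rw [← hy] at e5
    rw [e2, e3]
    linarith

/-- the penalty term is nonnegative -/
theorem re_inner_P_nonneg [NeZero p] (hz : z ^ p = 1) (x : V) :
    0 ≤ (p : ℝ)⁻¹ * ∑ j ∈ range p, (⟪x, ρ.R (z ^ j) x⟫_ℂ).re := by
  rw [avg_re, ρ.re_inner_P hz]
  exact sq_nonneg _

end URep

end Crest.Agent.R73
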