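import Crest.Agent.R73.Defs

/-!
# Row 73: the concrete group and the levels (task R73-Model)

PLAN.  `Sys.rel`: `(a i ^ n) v = v + n • N i v`; `⁅a i, a j⁆` is `1 + N i N j` if `i = j + 1`, its
inverse if `j = i + 1`, `1` if `i = j`; `⁅a i, addRight δ⁆ = addRight (N i δ)`.
`exists_group`: `M = ℤ → ZMod p`, `N i v m = if ((m - 1 : ℤ) : ZMod 3) = i then v (m - 1) else 0`,
`t v m = v (m - 1)`, `δ = Pi.single 0 1`, `G = (FreeGroup.lift f).range ≤ Equiv.Perm M` for
`f : Option ι → Perm M` (countable as a quotient of a free group), `Y = Set M` with `g • y = g '' y`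
and `y = {v | ∀ m ≤ 0, v m = 0}`.
`eq_bot`: downward induction on `r`: every `u ∈ S` vanishing at all `m < r` is zero
(`N r u` vanishes at all `m ≤ r` and its coordinate `r + 1` is `u r`; last step: a nonzero multiple
of `dl k (k-1)`; use `p` prime).  `eq_top`: `N r (dl r) = dl (r + 1)`.
-/

set_option autoImplicit false

namespace Crest.Agent.R73

open Filter Topology Finset
open scoped InnerProductSpace commutatorElement ComplexConjugate

section sys

variable {M : Type*} [AddCommGroup M] (𝔰 : Sys M)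

theorem Sys.a_apply (i : ZMod 3) (v : M) : 𝔰.a i v = v + 𝔰.N i v := rfl

theorem Sys.a_inv_apply (i : ZMod 3) (v : M) : (𝔰.a i)⁻¹ v = v - 𝔰.N i v := rfl

theorem Sys.a_pow (i : ZMod 3) (n : ℕ) (v : M) : (𝔰.a i ^ n) v = v + n • 𝔰.N i v := by
  induction n with
  | zero => simp
  | succ n ih =>
    rw [pow_succ', Equiv.Perm.mul_apply, ih, a_apply, map_add, map_nsmul, NN_self, succ_nsmul]
    simp [add_assoc]

theorem addRight_inv_apply (δ v : M) : (Equiv.addRight δ)⁻¹ v = v - δ := by
  rw [Equiv.Perm.inv_eq_iff_eq]; simp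

theorem addRight_pow (δ : M) (n : ℕ) (v : M) : (Equiv.addRight δ ^ n) v = v + n • δ := by
  induction n with
  | zero => simp
  | succ n ih => rw [pow_succ', Equiv.Perm.mul_apply, ih, succ_nsmul]; simp [add_assoc]

theorem Sys.comm_a_d (δ : M) (i : ZMod 3) :
    ⁅𝔰.gen δ (some i), 𝔰.gen δ none⁆ = Equiv.addRight (𝔰.N i δ) := by
  ext v
  simp only [gen, commutatorElement_def, Equiv.Perm.mul_apply, a_apply, a_inv_apply,
    addRight_inv_apply, Equiv.coe_addRight, map_add, map_sub, NN_self]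
  abel

theorem Sys.comm_tr {δ : M} {i : ZMod 3} (h : 𝔰.N i δ = 0) :
    Commute (Equiv.addRight δ) (𝔰.a i) := by
  ext v
  simp only [Equiv.Perm.mul_apply, a_apply, Equiv.coe_addRight, map_add, h]
  abel

theorem comm_tr_tr (δ δ' : M) : Commute (Equiv.addRight δ) (Equiv.addRight δ') := by
  ext v
  simp only [Equiv.Perm.mul_apply, Equiv.coe_addRight]
  abel

theorem Sys.heis_aa {i j : ZMod 3} (h : ∀ v, 𝔰.N j (𝔰.N i v) = 0) :
    Commute ⁅𝔰.a i, 𝔰.a j⁆ (𝔰.a i) ∧ Commute ⁅𝔰.a i, 𝔰.a j⁆ (𝔰.a j) := by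
  constructor <;> ext v <;>
    simp only [commutatorElement_def, Equiv.Perm.mul_apply, a_apply, a_inv_apply, map_add, map_sub,
      NN_self, h, map_zero] <;> abel

theorem Sys.rel {p : ℕ} (hp : ∀ v : M, p • v = 0)
    (δ δ' : M) (h : ∀ i, 𝔰.N i δ' = 0) : Rel p (𝔰.gen δ) (Equiv.addRight δ') where
  pow i := by
    ext v
    cases i with
    | none => simp only [gen, addRight_pow, hp, add_zero, Equiv.Perm.one_apply]
    | some i => simp only [gen, a_pow, hp, add_zero, Equiv.Perm.one_apply]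
  zpow := by
    ext v
    simp only [addRight_pow, hp, add_zero, Equiv.Perm.one_apply]
  heis i j := by
    cases i with
    | none =>
      cases j with
      | none => simp
      | some j =>
        rw [← commutatorElement_inv, comm_a_d]
        exact (𝔰.comm_tr (𝔰.NN_self j δ)).inv_left
    | some i =>
      cases j with
      | none => rw [comm_a_d]; exact comm_tr_tr _ _
      | some j =>
        by_cases hij : j = i + 1
        · have : i ≠ j + 1 := by subst hij; revert i; decide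
          rw [← commutatorElement_inv]
          exact (𝔰.heis_aa (𝔰.NN i j this)).1.inv_left
        · exact (𝔰.heis_aa (𝔰.NN j i hij)).2
  comm i := by
    cases i with
    | none => exact comm_tr_tr _ _
    | some i => exact 𝔰.comm_tr (h i)

end sys

/-- the bilateral model -/
def sysZ (p : ℕ) : Sys (ℤ → ZMod p) where
  N i :=
    { toFun := fun v m => if ((m - 1 : ℤ) : ZMod 3) = i then v (m - 1) else 0
      map_zero' := by ext m; simp
      map_add' := fun v w => by ext m; simp only [Pi.add_apply]; split_ifs <;> simp }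
  NN i j hij v := by
    ext m
    simp only [AddMonoidHom.coe_mk, ZeroHom.coe_mk, Pi.zero_apply]
    split_ifs with h1 h2
    · exact (hij (by rw [← h1, ← h2]; push_cast; ring)).elim
    · rfl
    · rfl

theorem sysZ_apply (p : ℕ) (i : ZMod 3) (v : ℤ → ZMod p) (m : ℤ) :
    (sysZ p).N i v m = if ((m - 1 : ℤ) : ZMod 3) = i then v (m - 1) else 0 := rfl

/-- the shift -/
def shift (p : ℕ) : Equiv.Perm (ℤ → ZMod p) where
  toFun v m := v (m - 1)
  invFun v m := v (m + 1)
  left_inv v := by ext m; simp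
  right_inv v := by ext m; simp

theorem exists_group (p : ℕ) [Fact p.Prime] :
    ∃ (G : Type) (_ : Group G) (_ : Countable G) (S : ι → G) (t : G) (Y : Type)
      (_ : MulAction G Y) (y : Y), Rel p S 1 ∧ (∀ i, t * S (some i) * t⁻¹ = S (some (i + 1))) ∧
      t * S none * t⁻¹ = ⁅S (some 0), S none⁆ ∧ (∀ i ≠ 0, ⁅S (some i), S none⁆ = 1) ∧
      (∀ i, S (some i) • y = y) ∧ ⁅S (some 0), S none⁆ • y = y ∧ S none • y ≠ y := by
  let δ : ℤ → ZMod p := Pi.single 0 1
  let f : Option ι → Equiv.Perm (ℤ → ZMod p) := fun o => o.elim (shift p) ((sysZ p).gen δ)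
  let G := (FreeGroup.lift f).range
  have hm : ∀ o, f o ∈ G := fun o => ⟨FreeGroup.of o, FreeGroup.lift_apply_of⟩
  have hr := (sysZ p).rel (p := p) (fun v => by ext m; simp) δ 0 fun i => map_zero _
  have hN0 : (sysZ p).N 0 δ = Pi.single 1 1 := by
    ext m
    by_cases hm : m = 1
    · simp [sysZ_apply, hm, δ]
    · have : m - 1 ≠ 0 := by omega
      simp [sysZ_apply, hm, δ, this]
  have hN : ∀ i ≠ 0, (sysZ p).N i δ = 0 := fun i hi => by
    ext m
    by_cases hm : m - 1 = 0
    · simp [sysZ_apply, hm, hi.symm]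
    · simp [sysZ_apply, hm, δ]
  have key : ∀ (g : G) (y : Set (ℤ → ZMod p)), (∀ v, v ∈ y ↔ g.1 v ∈ y) →
      open Pointwise in g • y = y := fun g y h => by
    ext v
    rw [Set.mem_smul_set_iff_inv_smul_mem, h]
    exact Iff.of_eq (congrArg (· ∈ y) (g.1.apply_symm_apply v))
  have hcomm : ∀ i, ((⁅(⟨_, hm (some (some i))⟩ : G), (⟨_, hm (some none)⟩ : G)⁆ : G) :
      Equiv.Perm (ℤ → ZMod p)) = Equiv.addRight ((sysZ p).N i δ) := fun i => (sysZ p).comm_a_d δ i
  refine ⟨G, inferInstance, (FreeGroup.lift f).rangeRestrict_surjective.countable,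
    fun i => ⟨_, hm (some i)⟩, ⟨_, hm none⟩, Set (ℤ → ZMod p), Set.mulActionSet,
    {v | ∀ m ≤ 0, v m = 0}, ⟨fun i => Subtype.ext (hr.pow i), one_pow p,
      fun i j => Subtype.ext (hr.heis i j), fun i => Commute.one_left _⟩,
    fun i => Subtype.ext ?_, Subtype.ext ?_, fun i hi => Subtype.ext ?_, fun i => key _ _ fun v => ?_,
    key _ _ fun v => ?_, fun h => ?_⟩
  · ext v m
    change v (m - 1 + 1) + (sysZ p).N i (fun m => v (m + 1)) (m - 1) = v m + (sysZ p).N (i + 1) v m
    simp only [sysZ_apply, sub_add_cancel]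
    congr 1
    refine if_congr ?_ rfl rfl
    push_cast
    exact sub_eq_iff_eq_add
  · rw [hcomm, hN0]
    ext v m
    change v (m - 1 + 1) + δ (m - 1) = v m + (Pi.single 1 1 : ℤ → ZMod p) m
    simp [δ, Pi.single_apply, sub_eq_zero]
  · rw [hcomm, hN i hi]
    ext v m
    simp
  · change (∀ m ≤ 0, v m = 0) ↔ ∀ m ≤ 0, v m + (sysZ p).N i v m = 0
    refine ⟨fun h m hm => by simp [sysZ_apply, h m hm, h (m - 1) (by omega)], fun h m hm => ?_⟩
    have h1 := h m hm
    have h2 := h (m - 1) (by omega)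
    rw [sysZ_apply] at h1 h2
    split_ifs at h1 with h3
    · rw [if_neg, add_zero] at h2
      · simpa [h2] using h1
      · rw [← h3]
        push_cast
        simp
    · simpa using h1
  · rw [hcomm, hN0]
    change (∀ m ≤ 0, v m = 0) ↔ ∀ m ≤ 0, v m + (Pi.single 1 1 : ℤ → ZMod p) m = 0
    refine forall₂_congr fun m hm => ?_
    rw [Pi.single_eq_of_ne (by omega), add_zero]
  · have h0 : (0 : ℤ → ZMod p) ∈ {v : ℤ → ZMod p | ∀ m ≤ 0, v m = 0} := fun _ _ => rfl
    have h1 := Set.smul_mem_smul_set (a := (⟨_, hm (some none)⟩ : G)) h0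
    rw [h] at h1
    have h2 : (0 + δ) 0 = 0 := h1 0 le_rfl
    simp [δ] at h2

variable {p : ℕ}

theorem N_apply {k : ℕ} (i : ZMod 3) (v : XX p k) (m : Fin k) :
    (sysX p k).N i v m = if h : 0 < (m : ℕ) ∧ (((m : ℕ) - 1 : ℕ) : ZMod 3) = i then
      v ⟨m - 1, lt_of_le_of_lt (Nat.sub_le _ _) m.2⟩ else 0 := rfl

theorem N_dl (k : ℕ) (i : ZMod 3) (r : ℕ) :
    (sysX p k).N i (dl p k r) = if (r : ZMod 3) = i then dl p k (r + 1) else 0 := by
  ext m
  rw [N_apply]
  by_cases hm : (m : ℕ) = r + 1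
  · by_cases hi : (r : ZMod 3) = i <;> simp [dl, hm, hi]
  · have : ¬ (0 < (m : ℕ) ∧ (m : ℕ) - 1 = r) := by omega
    split_ifs with h1 h2 h2
    · simp only [dl, hm, if_false, ite_eq_right_iff]
      exact fun h => (this ⟨h1.1, h⟩).elim
    · simp only [dl, Pi.zero_apply, ite_eq_right_iff]
      exact fun h => (this ⟨h1.1, h⟩).elim
    · simp [dl, hm]
    · rfl

theorem dl_eq_zero {k r : ℕ} (h : k ≤ r) : dl p k r = 0 := by
  ext m
  have := m.2
  simp only [dl, Pi.zero_apply, ite_eq_right_iff]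
  omega

theorem relX (k : ℕ) : Rel p (α p k) (ζ p k) :=
  (sysX p k).rel (fun v => by ext m; simp) _ _ fun i => by
    rw [N_dl, dl_eq_zero (r := k - 1 + 1) (by omega), ite_self]

theorem lift_one (k : ℕ) : Lift (1 : Equiv.Perm (XX p k)) 1 := ⟨fun _ => rfl, fun _ => rfl⟩

theorem lift_a (k : ℕ) (i : ZMod 3) : Lift (α p k (some i)) (α p (k + 1) (some (i + 1))) := by
  refine ⟨fun v => by simp [α, Sys.gen, Sys.a_apply, N_apply], fun v => ?_⟩
  ext m
  refine Fin.cases (by simp [α, Sys.gen, Sys.a_apply, N_apply]) (fun m => ?_) m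
  simp only [α, Sys.gen, Sys.a_apply, Pi.add_apply, Fin.cons_succ, N_apply, Fin.val_succ,
    Nat.add_sub_cancel, add_right_inj]
  obtain ⟨m, hm⟩ := m
  cases m with
  | zero => simp
  | succ m =>
    simp only [Nat.zero_lt_succ, true_and, Nat.add_sub_cancel, Nat.cast_add, Nat.cast_one,
      add_left_inj]
    rfl

theorem lift_tr (k r : ℕ) :
    Lift (Equiv.addRight (dl p k r)) (Equiv.addRight (dl p (k + 1) (r + 1))) := by
  refine ⟨fun v => by simp [dl], fun v => ?_⟩
  ext m
  refine Fin.cases (by simp [dl]) (fun m => by simp [dl]) m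

theorem lift_d (k : ℕ) :
    Lift (α p k none) ⁅α p (k + 1) (some 0), α p (k + 1) none⁆ := by
  rw [α, α, Sys.comm_a_d, N_dl, if_pos (by simp)]
  exact lift_tr k 0

theorem lift_z (k : ℕ) : Lift (ζ p (k + 1)) (ζ p (k + 1 + 1)) := lift_tr (k + 1) k

theorem comm_eq_one (k : ℕ) {i : ZMod 3} (hi : i ≠ 0) : ⁅α p k (some i), α p k none⁆ = 1 := by
  rw [α, Sys.comm_a_d, N_dl, if_neg (by simpa using hi.symm)]
  ext v
  simp

theorem zeta_one : ζ p 1 = α p 1 none := rfl

theorem pow_d_inv (k j : ℕ) (v : XX p (k + 1)) : (α p (k + 1) none ^ j)⁻¹ v 0 = v 0 - j := by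
  have : (α p (k + 1) none ^ j)⁻¹ v = v - j • dl p (k + 1) 0 := by
    rw [Equiv.Perm.inv_eq_iff_eq, α, Sys.gen, addRight_pow, sub_add_cancel]
  simp [this, dl]

theorem zmod_smul_mem [NeZero p] {k : ℕ} (S : AddSubgroup (XX p k)) (c : ZMod p) {u : XX p k}
    (hu : u ∈ S) : c • u ∈ S := by
  rw [← ZMod.natCast_zmod_val c, Nat.cast_smul_eq_nsmul]
  exact nsmul_mem hu _

theorem eq_bot [Fact p.Prime] {k : ℕ} (S : AddSubgroup (XX p k))
    (hN : ∀ i, ∀ u ∈ S, (sysX p k).N i u ∈ S) (h : dl p k (k - 1) ∉ S) : S = ⊥ := by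
  have key : ∀ d r, r + d = k → ∀ u ∈ S, (∀ m : Fin k, (m : ℕ) < r → u m = 0) → u = 0 := by
    intro d
    induction d with
    | zero => exact fun r hr u _ h0 => funext fun m => h0 m (by have := m.2; omega)
    | succ d ih =>
      intro r hr u hu h0
      have hrk : r < k := by omega
      refine ih (r + 1) (by omega) u hu fun m hm => ?_
      rcases Nat.lt_succ_iff_lt_or_eq.1 hm with hm | hm
      · exact h0 m hm
      obtain rfl : m = ⟨r, hrk⟩ := Fin.ext hm
      by_cases hd : d = 0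
      · by_contra hne
        refine h ?_
        convert zmod_smul_mem S (u ⟨r, hrk⟩)⁻¹ hu using 1
        ext m
        by_cases hm : (m : ℕ) = r
        · obtain rfl : m = ⟨r, hrk⟩ := Fin.ext hm
          have : r = k - 1 := by omega
          simp [dl, hne, ← this]
        · have h1 : (m : ℕ) ≠ k - 1 := by omega
          have h2 : (m : ℕ) < r := by have := m.2; omega
          simp [dl, h1, h0 m h2]
      · have h1 := ih (r + 1) (by omega) _ (hN r u hu) fun m hm => by
          rw [N_apply]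
          split_ifs with h2
          · exact h0 _ (by have := h2.1; simp only; omega)
          · rfl
        simpa [N_apply] using congrFun h1 ⟨r + 1, by omega⟩
  exact (AddSubgroup.eq_bot_iff_forall S).2 fun u hu => key k 0 (by omega) u hu fun m hm => by omega

theorem eq_top [NeZero p] {k : ℕ} (S : AddSubgroup (XX p k))
    (hN : ∀ i, ∀ u ∈ S, (sysX p k).N i u ∈ S) (h : dl p k 0 ∈ S) : S = ⊤ := by
  have key : ∀ r, dl p k r ∈ S := fun r => by
    induction r with
    | zero => exact h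
    | succ r ih => simpa [N_dl] using hN r _ ih
  refine (AddSubgroup.eq_top_iff' S).2 fun v => ?_
  have : v = ∑ m : Fin k, v m • dl p k m := by
    ext m
    simp [dl, Fin.val_inj]
  rw [this]
  exact sum_mem fun m _ => zmod_smul_mem S _ (key m)

end Crest.Agent.R73
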