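import Crest.Agent.R73.Defs

/-!
# Row 73: norming representations (task R73-Rep)

PLAN.  `a = star y * y`; `‖a + ‖a‖ • 1‖ = 2‖a‖` (`‖a‖ ∈ spectrum ℝ a`); take a dual vector `f`
(`exists_dual_vector''`) of `a + ‖a‖ • 1` (or of `1` if `a = 0`): `‖f‖ ≤ 1`, `f 1 = 1`, `f a = ‖a‖`.
`‖f‖ ≤ 1 = f 1` implies positivity (real on self-adjoint `h` from
`|f h + i t|² ≤ ‖h + i t‖² ≤ ‖h‖² + t²`; `‖‖b‖ • 1 - b‖ ≤ ‖b‖` for `0 ≤ b`).  Then
`PositiveLinearMap.gnsStarAlgHom` (order: `CStarAlgebra.spectralOrder`), `x` = class of `1`.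
-/

set_option autoImplicit false

namespace Crest.Agent.R73

open Filter Topology Finset
open scoped InnerProductSpace commutatorElement ComplexConjugate

namespace Rep

variable {O : Type} [CStarAlgebra O]

theorem im_eq_zero {f : O →L[ℂ] ℂ} (hf : ‖f‖ ≤ 1) (h1 : f 1 = 1) {h : O} (hs : IsSelfAdjoint h) :
    (f h).im = 0 := by
  have key : ∀ t : ℝ, 2 * t * (f h).im ≤ ‖h‖ ^ 2 := fun t => by
    have e1 : ‖f (h + (t * Complex.I : ℂ) • 1)‖ ≤ ‖h + (t * Complex.I : ℂ) • 1‖ :=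
      (f.le_opNorm _).trans (mul_le_of_le_one_left (norm_nonneg _) hf)
    have e2 : ‖h + (t * Complex.I : ℂ) • 1‖ ^ 2 ≤ ‖h‖ ^ 2 + t ^ 2 := by
      rw [sq, ← CStarRing.norm_star_mul_self]
      have : star (h + (t * Complex.I : ℂ) • 1) * (h + (t * Complex.I : ℂ) • 1) =
          star h * h + ((t ^ 2 : ℝ) : ℂ) • 1 := by
        simp only [star_add, star_smul, hs.star_eq, star_one, add_mul, mul_add, smul_mul_assoc,
          mul_smul_comm, one_mul, mul_one, smul_smul, Complex.star_def, map_mul, Complex.conj_I,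
          Complex.conj_ofReal]
        have : (t * -Complex.I * (t * Complex.I) : ℂ) = ((t ^ 2 : ℝ) : ℂ) := by
          push_cast
          linear_combination (-(t : ℂ) ^ 2) * Complex.I_mul_I
        rw [smul_add, smul_smul, mul_comm (t * Complex.I : ℂ), this]
        module
      rw [this]
      refine (norm_add_le _ _).trans (add_le_add (by rw [CStarRing.norm_star_mul_self, sq]) ?_)
      rw [norm_smul, Complex.norm_real, Real.norm_of_nonneg (sq_nonneg t)]
      exact mul_le_of_le_one_right (sq_nonneg t) (IsStarProjection.one O).norm_le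
    have e3 := (pow_le_pow_left₀ (norm_nonneg _) e1 2).trans e2
    rw [map_add, map_smul, h1, Complex.sq_norm, Complex.normSq_apply] at e3
    simp at e3
    nlinarith [mul_self_nonneg (f h).re, mul_self_nonneg (f h).im]
  by_contra hne
  have := key ((‖h‖ ^ 2 + 1) / (2 * (f h).im))
  rw [show 2 * ((‖h‖ ^ 2 + 1) / (2 * (f h).im)) * (f h).im = ‖h‖ ^ 2 + 1 by field_simp] at this
  linarith

open scoped ComplexOrder in
theorem nonneg [PartialOrder O] [StarOrderedRing O] {f : O →L[ℂ] ℂ} (hf : ‖f‖ ≤ 1) (h1 : f 1 = 1)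
    {b : O} (hb : 0 ≤ b) : 0 ≤ f b := by
  refine Complex.nonneg_iff.2 ⟨?_, (im_eq_zero hf h1 (.of_nonneg hb)).symm⟩
  have e1 : b ≤ algebraMap ℝ O ‖b‖ := (IsSelfAdjoint.of_nonneg hb).le_algebraMap_norm_self
  have e2 : ‖algebraMap ℝ O ‖b‖ - b‖ ≤ ‖b‖ :=
    (CStarAlgebra.norm_le_iff_le_algebraMap _ (norm_nonneg b) (sub_nonneg.2 e1)).2 (sub_le_self _ hb)
  have e3 := (Complex.re_le_norm _).trans ((f.le_opNorm (algebraMap ℝ O ‖b‖ - b)).trans
    ((mul_le_of_le_one_left (norm_nonneg _) hf).trans e2))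
  rw [map_sub, Algebra.algebraMap_eq_smul_one, ← Complex.coe_smul, map_smul, h1] at e3
  simpa using e3

theorem exists_state [Nontrivial O] [PartialOrder O] [StarOrderedRing O] {a : O} (ha : 0 ≤ a) :
    ∃ f : O →L[ℂ] ℂ, ‖f‖ ≤ 1 ∧ f 1 = 1 ∧ (f a).re = ‖a‖ := by
  obtain ⟨f, hf, hfa⟩ := exists_dual_vector'' ℂ (a + 1)
  have e1 : ‖a‖ + 1 ≤ ‖a + 1‖ := by
    have h1 := CStarAlgebra.norm_mem_spectrum_of_nonneg ha
    have h2 : ‖a‖ + 1 ∈ spectrum ℝ (a + 1) := by
      have := (spectrum.add_mem_add_iff (a := a) (r := ‖a‖) (s := (1 : ℝ))).2 h1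
      rwa [map_one, add_comm 1 a] at this
    exact (le_abs_self _).trans (spectrum.norm_le_norm_of_mem h2)
  have e2 : ‖f a‖ ≤ ‖a‖ := (f.le_opNorm _).trans (mul_le_of_le_one_left (norm_nonneg _) hf)
  have e3 : ‖f 1‖ ≤ 1 := (f.le_opNorm _).trans (by simpa using hf)
  have e4 : (f a).re + (f 1).re = ‖a + 1‖ := by
    rw [← Complex.add_re, ← map_add, hfa]; rfl
  have e5 := (Complex.re_le_norm _).trans e2
  have e6 := (Complex.re_le_norm _).trans e3
  have e7 : (f 1).re = 1 := by linarith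
  refine ⟨f, hf, ?_, by linarith⟩
  have e8 := pow_le_one₀ (n := 2) (norm_nonneg _) e3
  rw [Complex.sq_norm, Complex.normSq_apply, e7] at e8
  exact Complex.ext e7 (by simpa using mul_self_eq_zero.1 (by nlinarith [mul_self_nonneg (f 1).im]))

end Rep

open scoped ComplexOrder in
theorem exists_rep (O : Type) [CStarAlgebra O] [Nontrivial O] (y : O) :
    ∃ (K : Type) (_ : NormedAddCommGroup K) (_ : InnerProductSpace ℂ K) (_ : CompleteSpace K)
      (π : O →⋆ₐ[ℂ] (K →L[ℂ] K)) (x : K), ‖x‖ = 1 ∧ ‖π y x‖ = ‖y‖ := by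
  let _ := CStarAlgebra.spectralOrder O
  haveI := CStarAlgebra.spectralOrderedRing O
  obtain ⟨f, hf, h1, hy⟩ := Rep.exists_state (star_mul_self_nonneg y)
  let φ : O →ₚ[ℂ] ℂ := PositiveLinearMap.mk₀ f.toLinearMap fun b hb => Rep.nonneg hf h1 hb
  refine ⟨φ.GNS, inferInstance, inferInstance, inferInstance, φ.gnsStarAlgHom,
    (φ.toPreGNS 1 : φ.PreGNS), ?_, ?_⟩
  · rw [UniformSpace.Completion.norm_coe, PositiveLinearMap.preGNS_norm_def]
    change √(f (star 1 * 1)).re = 1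
    simp [h1]
  · change ‖φ.gnsNonUnitalStarAlgHom y _‖ = _
    rw [PositiveLinearMap.gnsNonUnitalStarAlgHom_apply_coe, UniformSpace.Completion.norm_coe,
      PositiveLinearMap.preGNS_norm_def]
    change √(f (star (y * 1) * (y * 1))).re = _
    rw [mul_one, hy, CStarRing.norm_star_mul_self, Real.sqrt_mul_self (norm_nonneg _)]

end Crest.Agent.R73
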