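import Crest.Agent.R73.Ultra
import Crest.Agent.R73.Model

/-! # Row 73: low energy vectors pass from one level to the next -/

set_option autoImplicit false

namespace Crest.Agent.R73

open Filter Topology Finset
open scoped InnerProductSpace commutatorElement ComplexConjugate

section ext

variable {p : ℕ} [NeZero p] {K : Type*} [NormedAddCommGroup K] [InnerProductSpace ℂ K] {k : ℕ}

/-- extension by zero, as a linear map -/
noncomputable def extₗ : L2 (XX p k) K →ₗ[ℂ] L2 (XX p (k + 1)) K where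
  toFun ξ := WithLp.toLp 2 fun v => if v 0 = 0 then ξ (Fin.tail v) else 0
  map_add' ξ η := by ext v; simp only [PiLp.add_apply]; split_ifs <;> simp
  map_smul' c ξ := by ext v; simp only [PiLp.smul_apply]; split_ifs <;> simp

theorem inner_extₗ (ξ η : L2 (XX p k) K) : ⟪extₗ ξ, extₗ η⟫_ℂ = ⟪ξ, η⟫_ℂ := by
  rw [PiLp.inner_apply, PiLp.inner_apply, ← (Fin.consEquiv fun _ => ZMod p).sum_comp,
    Fintype.sum_prod_type, sum_eq_single 0]
  · simp [extₗ, Fin.consEquiv]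
  · intro c _ hc
    simp [extₗ, Fin.consEquiv, hc]
  · simp

theorem norm_extₗ (ξ : L2 (XX p k) K) : ‖extₗ ξ‖ = ‖ξ‖ := by
  rw [@norm_eq_sqrt_re_inner ℂ, inner_extₗ, ← @norm_eq_sqrt_re_inner ℂ]

/-- extension by zero -/
noncomputable def ext0 : L2 (XX p k) K →L[ℂ] L2 (XX p (k + 1)) K :=
  extₗ.mkContinuous 1 fun ξ => by rw [norm_extₗ, one_mul]

theorem ext0_apply (ξ : L2 (XX p k) K) (v : XX p (k + 1)) :
    ext0 ξ v = if v 0 = 0 then ξ (Fin.tail v) else 0 := rfl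

theorem norm_ext0_le : ‖(ext0 : L2 (XX p k) K →L[ℂ] _)‖ ≤ 1 :=
  LinearMap.mkContinuous_norm_le _ zero_le_one _

theorem amp_ext0 {β : Equiv.Perm (XX p k)} {β' : Equiv.Perm (XX p (k + 1))} (h : Lift β β')
    (T : K →L[ℂ] K) (ξ : L2 (XX p k) K) : ext0 (amp T β ξ) = amp T β' (ext0 ξ) := by
  ext v
  have h0 : β'⁻¹ v 0 = v 0 := by
    rw [← h.1 (β'⁻¹ v), show β' (β'⁻¹ v) = v from β'.apply_symm_apply v]
  rw [amp_apply, ext0_apply, ext0_apply, h0]
  split_ifs with hv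
  · have : β'⁻¹ v = Fin.cons 0 (β⁻¹ (Fin.tail v)) := by
      rw [Equiv.Perm.inv_eq_iff_eq, h.2,
        show β (β⁻¹ (Fin.tail v)) = Fin.tail v from β.apply_symm_apply _, ← hv, Fin.cons_self_tail]
    rw [this, Fin.tail_cons, amp_apply]
  · simp

theorem ext0_orth {j : ℕ} (hj : (j : ZMod p) ≠ 0) (T : K →L[ℂ] K) (ξ η : L2 (XX p k) K) :
    ⟪ext0 ξ, amp T (α p (k + 1) none ^ j) (ext0 η)⟫_ℂ = 0 := by
  rw [inner_amp]
  refine sum_eq_zero fun v _ => ?_
  rw [ext0_apply, ext0_apply, pow_d_inv]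
  by_cases hv : v 0 = 0
  · simp [hv, hj]
  · simp [hv]

end ext

section lev

variable {ω : Ultrafilter ℕ} {G : Type*} [Group G] {K : ℕ → Type*}
  [∀ n, NormedAddCommGroup (K n)] [∀ n, InnerProductSpace ℂ (K n)] [∀ n, CompleteSpace (K n)]
  (p : ℕ) [Fact p.Prime] (U : AR ω G K)

/-- `U ⊗ (permutations)` -/
noncomputable def lev (k : ℕ → ℕ) :
    AR ω (G × ∀ n, Equiv.Perm (XX p (k n))) fun n => L2 (XX p (k n)) (K n) where
  ρ n g := amp (U.ρ n g.1) (g.2 n)
  le g n := (norm_amp_le _ _).trans (U.le _ n)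
  one n := by simp only [Prod.fst_one, Prod.snd_one, Pi.one_apply, U.one, amp_one]
  mul g h := squeeze_zero (fun _ => norm_nonneg _) (fun n => by
    rw [← amp_mul, Prod.snd_mul, Pi.mul_apply, ← amp_sub]; exact norm_amp_le _ _) (U.mul g.1 h.1)
  star g := squeeze_zero (fun _ => norm_nonneg _) (fun n => by
    rw [star_amp, Prod.snd_inv, Pi.inv_apply, ← amp_sub]; exact norm_amp_le _ _) (U.star g.1)

/-- generators at the levels `k n` -/
def sL (S : ι → G) (k : ℕ → ℕ) (i : ι) : G × ∀ n, Equiv.Perm (XX p (k n)) :=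
  (S i, fun n => α p (k n) i)

/-- the central element at the levels `k n` -/
def zL (G : Type*) [Group G] (k : ℕ → ℕ) : G × ∀ n, Equiv.Perm (XX p (k n)) :=
  (1, fun n => ζ p (k n))

/-- there is a low energy vector at stage `n` and level `k` -/
def Low (S : ι → G) (n k : ℕ) : Prop :=
  ∃ ξ : L2 (XX p k) (K n), qX k (fun i j => U.ρ n (S i ^ j)) ξ < 1 / 40 * ‖ξ‖ ^ 2

/-- extension by zero on ultraproducts -/
noncomputable def EE (ω : Ultrafilter ℕ) (k : ℕ → ℕ) :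
    UP ω (fun n => L2 (XX p (k n)) (K n)) →ₗ[ℂ] UP ω fun n => L2 (XX p (k n + 1)) (K n) :=
  umap ω (fun _ => ext0) fun _ => norm_ext0_le

variable {p} {S : ι → G} {k : ℕ → ℕ}

omit [Fact p.Prime] in
theorem relL (h : Rel p S 1) (k : ℕ → ℕ) : Rel p (sL p S k) (zL p G k) where
  pow i := Prod.ext (h.pow i) (funext fun n => (relX (k n)).pow i)
  zpow := Prod.ext (one_pow p) (funext fun n => (relX (k n)).zpow)
  heis i j := Prod.ext (h.heis i j) (funext fun n => (relX (k n)).heis i j)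
  comm i := Prod.ext (h.comm i) (funext fun n => (relX (k n)).comm i)

theorem lev_q (n : ℕ) (ξ : L2 (XX p (k n)) (K n)) :
    (lev p U k).q p (sL p S k) (zL p G k) n ξ = qX (k n) (fun i j => U.ρ n (S i ^ j)) ξ := by
  simp only [AR.q, qX, lev, sL, zL, Prod.pow_mk, Pi.pow_apply, one_pow, U.one]

theorem EE_R (g : G) {β : ∀ n, Equiv.Perm (XX p (k n))} {β' : ∀ n, Equiv.Perm (XX p (k n + 1))}
    (h : ∀ n, Lift (β n) (β' n)) (x : UP ω fun n => L2 (XX p (k n)) (K n)) :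
    EE p ω k ((lev p U k).rep.R (g, β) x) = (lev p U fun n => k n + 1).rep.R (g, β') (EE p ω k x) := by
  obtain ⟨x, rfl⟩ := mk_surjective ω x
  rw [AR.rep_mk, EE, umap_mk, umap_mk, AR.rep_mk]
  exact congrArg (umk ω) (Subtype.ext (funext fun n => amp_ext0 (h n) _ _))

omit [∀ n, CompleteSpace (K n)] in
theorem inner_EE (x y : UP ω fun n => L2 (XX p (k n)) (K n)) :
    ⟪EE p ω k x, EE p ω k y⟫_ℂ = ⟪x, y⟫_ℂ := by
  obtain ⟨x, rfl⟩ := mk_surjective ω x
  obtain ⟨y, rfl⟩ := mk_surjective ω y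
  rw [EE, umap_mk, umap_mk]
  exact tendsto_nhds_unique (tendsto_inner ω _ _)
    ((tendsto_inner ω x y).congr fun n => (inner_extₗ _ _).symm)

theorem EE_orth {j : ℕ} (hj : (j : ZMod p) ≠ 0) (x : UP ω fun n => L2 (XX p (k n)) (K n)) :
    ⟪EE p ω k x, (lev p U fun n => k n + 1).rep.R (sL p S _ none ^ j) (EE p ω k x)⟫_ℂ = 0 := by
  obtain ⟨x, rfl⟩ := mk_surjective ω x
  rw [EE, umap_mk, AR.rep_mk]
  exact tendsto_nhds_unique (tendsto_inner ω _ _)
    (tendsto_const_nhds.congr fun n => (ext0_orth hj _ _ _).symm)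

theorem low_of (h : Rel p S 1) (hc : ∀ i ≠ 0, ⁅S (some i), S none⁆ = 1)
    {y : UP ω fun n => L2 (XX p (k n)) (K n)} (hy : y ≠ 0)
    (ha : ∀ i, (lev p U k).rep.R (S (some (i + 1)), fun n => α p (k n) (some i)) y = y)
    (hd : (lev p U k).rep.R (⁅S (some 0), S none⁆, fun n => α p (k n) none) y = y)
    (hz : (lev p U fun n => k n + 1).rep.P p (zL p G _)
      ((lev p U fun n => k n + 1).rep.P p (sL p S _ none) (EE p ω k y)) = 0) :
    ∀ᶠ n in ω, Low p U S n (k n + 1) := by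
  set ρ := (lev p U fun n => k n + 1).rep
  have hr := relL h fun n => k n + 1
  have ha' : ∀ i, ρ.R (sL p S _ (some i)) (EE p ω k y) = EE p ω k y := fun i => by
    obtain ⟨i, rfl⟩ : ∃ j, i = j + 1 := ⟨i - 1, by ring⟩
    rw [sL, ← EE_R U _ fun n => lift_a (k n) i, ha]
  have hd' : ∀ i, ρ.R ⁅sL p S _ (some i), sL p S _ none⁆ (EE p ω k y) = EE p ω k y := fun i => by
    by_cases hi : i = 0
    · subst hi
      rw [show ⁅sL p S (fun n => k n + 1) (some 0), sL p S _ none⁆ = (⁅S (some 0), S none⁆,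
        fun n => ⁅α p (k n + 1) (some 0), α p (k n + 1) none⁆) from rfl,
        ← EE_R U _ fun n => lift_d (k n), hd]
    · have : ⁅sL p S (fun n => k n + 1) (some i), sL p S (fun n => k n + 1) none⁆ = 1 :=
        Prod.ext (hc i hi) (funext fun n => comm_eq_one (p := p) (k n + 1) hi)
      rw [this, map_one, Module.End.one_apply]
  have hq := ρ.q_eq_zero (p := p) (s := sL p S _) (z := zL p G _)
    (x := ρ.P p (sL p S _ none) (EE p ω k y)) (fun i => by
      cases i with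
      | none => exact ρ.R_P (hr.pow none) _
      | some i => exact ρ.R_P_fix (hr.heis _ _) (ha' i) (hd' i)) hz
  have hne : ρ.P p (sL p S _ none) (EE p ω k y) ≠ 0 := by
    intro h0
    have h1 : ⟪EE p ω k y, ρ.P p (sL p S _ none) (EE p ω k y)⟫_ℂ = (p : ℂ)⁻¹ * ⟪y, y⟫_ℂ := by
      rw [ρ.P_apply, inner_smul_right, inner_sum, sum_eq_single 0]
      · rw [pow_zero, map_one, Module.End.one_apply, inner_EE]
      · intro j hj hj0
        refine EE_orth U ?_ y
        rw [Ne, ZMod.natCast_eq_zero_iff]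
        exact Nat.not_dvd_of_pos_of_lt (Nat.pos_of_ne_zero hj0) (mem_range.1 hj)
      · intro h0
        exact (h0 (mem_range.2 (Fact.out : p.Prime).pos)).elim
    rw [h0, inner_zero_right, eq_comm, mul_eq_zero, inv_eq_zero, Nat.cast_eq_zero,
      inner_self_eq_zero] at h1
    exact h1.elim (Fact.out : p.Prime).ne_zero hy
  exact ((lev p U fun n => k n + 1).eventually_low hne hq (δ := 1 / 40) (by norm_num)).mono
    fun n ⟨ξ, hξ⟩ => ⟨ξ, by rwa [lev_q] at hξ⟩

theorem step (hp : 25 ≤ p) (hω : (ω : Filter ℕ) ≤ atTop) (h : Rel p S 1) {t : G}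
    (hta : ∀ i, t * S (some i) * t⁻¹ = S (some (i + 1)))
    (htd : t * S none * t⁻¹ = ⁅S (some 0), S none⁆) (hc : ∀ i ≠ 0, ⁅S (some i), S none⁆ = 1)
    (hl : ∀ᶠ n in ω, Low p U S n (k n + 1)) : ∀ᶠ n in ω, Low p U S n (k n + 1 + 1) := by
  obtain ⟨x, hx, hs, hz⟩ := (lev p U fun n => k n + 1).exists_fixed hp (relL h _) hω
    (δ := 1 / 40) (by norm_num) (hl.mono fun n ⟨ξ, hξ⟩ => ⟨ξ, by rwa [lev_q]⟩)
  set ρ := (lev p U fun n => k n + 1).rep
  have key : ∀ i, ρ.R (t * S i * t⁻¹, fun n => α p (k n + 1) i) (ρ.R (t, 1) x) = ρ.R (t, 1) x :=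
    fun i => by
      rw [← ρ.R_mul, show ((t * S i * t⁻¹, fun n => α p (k n + 1) i) * (t, 1) :
        G × ∀ n, Equiv.Perm (XX p (k n + 1))) = (t, 1) * sL p S _ i by simp [sL], ρ.R_mul, hs]
  refine low_of (k := fun n => k n + 1) U h hc (y := ρ.R (t, 1) x) ?_ (fun i => ?_) ?_ ?_
  · rw [← norm_ne_zero_iff, ρ.norm_R, hx]
    exact one_ne_zero
  · rw [← hta]; exact key _
  · rw [← htd]; exact key _
  · rw [URep.P_P_comm _ ((relL h _).comm none), zL,
      ← ρ.map_P _ (EE p ω _) (EE_R U 1 fun n => lift_z (k n)), ← ρ.R_P_comm]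
    · rw [show ((1 : G), fun n => ζ p (k n + 1)) = zL p G _ from rfl, hz]
      simp
    · exact Prod.ext (by simp) (by simp)

theorem start (h : Rel p S 1) (hc : ∀ i ≠ 0, ⁅S (some i), S none⁆ = 1)
    {y : UP ω fun n => L2 (XX p 0) (K n)} (hy : y ≠ 0)
    (ha : ∀ i, (lev p U fun _ => 0).rep.R (S (some i), 1) y = y)
    (hd : (lev p U fun _ => 0).rep.R (⁅S (some 0), S none⁆, 1) y = y)
    (hz : (lev p U fun _ => 0).rep.P p (S none, 1) y = 0) : ∀ᶠ n in ω, Low p U S n (0 + 1) := by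
  refine low_of (k := fun _ => 0) U h hc hy (fun i => ?_) ?_ ?_
  · rw [Subsingleton.elim (fun _ : ℕ => α p 0 (some i)) 1]
    exact ha (i + 1)
  · rw [Subsingleton.elim (fun _ : ℕ => α p 0 none) 1]
    exact hd
  · rw [show sL p S (fun _ => 0 + 1) none = (S none, 1) * zL p G _ from
      Prod.ext (mul_one _).symm (one_mul _).symm, URep.P_P_mul _ (relL h _).zpow,
      ← (lev p U fun _ => 0).rep.map_P _ (EE p ω _) (EE_R U _ (β := 1) (β' := 1) fun n => lift_one 0), hz]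
    · simp
    · exact Prod.ext (by simp [zL]) (by simp [zL])

end lev

end Crest.Agent.R73
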