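import Crest.Agent.R73.Gap

/-! # Row 73: ultraproducts of Hilbert spaces and of asymptotic representations -/

set_option autoImplicit false

namespace Crest.Agent.R73

open Filter Topology Finset
open scoped InnerProductSpace commutatorElement ComplexConjugate

theorem exists_lim (ω : Ultrafilter ℕ) {f : ℕ → ℂ} {C : ℝ} (h : ∀ n, ‖f n‖ ≤ C) :
    ∃ c, Tendsto f ω (𝓝 c) := by
  obtain ⟨c, -, hc⟩ := (isCompact_closedBall (0 : ℂ) C).ultrafilter_le_nhds (ω.map f) (by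
    rw [Ultrafilter.coe_map, le_principal_iff, Filter.mem_map]
    exact univ_mem' fun n => by simpa using h n)
  exact ⟨c, hc⟩

section defs

variable (ω : Ultrafilter ℕ) (V : ℕ → Type*) [∀ n, NormedAddCommGroup (V n)]
  [∀ n, InnerProductSpace ℂ (V n)]

/-- bounded sequences -/
def Bd : Submodule ℂ (∀ n, V n) where
  carrier := {x | ∃ C, ∀ n, ‖x n‖ ≤ C}
  add_mem' := by
    rintro x y ⟨C, hC⟩ ⟨D, hD⟩
    exact ⟨C + D, fun n => (norm_add_le _ _).trans (add_le_add (hC n) (hD n))⟩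
  zero_mem' := ⟨0, fun n => by simp⟩
  smul_mem' := by
    rintro c x ⟨C, hC⟩
    exact ⟨‖c‖ * C, fun n => by
      rw [Pi.smul_apply, norm_smul]; exact mul_le_mul_of_nonneg_left (hC n) (norm_nonneg _)⟩

variable {V}

/-- the limit inner product -/
noncomputable def ip (x y : Bd V) : ℂ := limUnder (ω : Filter ℕ) fun n => ⟪x.1 n, y.1 n⟫_ℂ

theorem tendsto_ip (x y : Bd V) :
    Tendsto (fun n => ⟪x.1 n, y.1 n⟫_ℂ) ω (𝓝 (ip ω x y)) := by
  obtain ⟨C, hC⟩ := x.2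
  obtain ⟨D, hD⟩ := y.2
  exact tendsto_nhds_limUnder (exists_lim ω (C := C * D) fun n => (norm_inner_le_norm _ _).trans
    (mul_le_mul (hC n) (hD n) (norm_nonneg _) ((norm_nonneg _).trans (hC n))))

variable (V)

/-- bounded sequences with the limit seminorm -/
def Pre (_ω : Ultrafilter ℕ) (V : ℕ → Type*) [∀ n, NormedAddCommGroup (V n)]
  [∀ n, InnerProductSpace ℂ (V n)] := ↥(Bd V)

instance : AddCommGroup (Pre ω V) := inferInstanceAs (AddCommGroup (Bd V))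
instance : Module ℂ (Pre ω V) := inferInstanceAs (Module ℂ (Bd V))

/-- the identity -/
def toPre : Bd V ≃ₗ[ℂ] Pre ω V := LinearEquiv.refl ℂ _

/-- the limit semi-inner product -/
@[reducible] noncomputable def core : PreInnerProductSpace.Core ℂ (Pre ω V) where
  inner x y := ip ω ((toPre ω V).symm x) ((toPre ω V).symm y)
  conj_inner_symm x y := by
    refine tendsto_nhds_unique ((Complex.continuous_conj.tendsto _).comp (tendsto_ip ω _ _))
      ((tendsto_ip ω _ _).congr fun n => ?_)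
    simp
  re_inner_nonneg x :=
    ge_of_tendsto' ((Complex.continuous_re.tendsto _).comp (tendsto_ip ω _ _)) fun n =>
      inner_self_nonneg (𝕜 := ℂ)
  add_left x y z := by
    refine tendsto_nhds_unique (tendsto_ip ω _ _)
      (((tendsto_ip ω _ _).add (tendsto_ip ω _ _)).congr fun n => ?_)
    simp [inner_add_left]
  smul_left x y c := by
    refine tendsto_nhds_unique (tendsto_ip ω _ _)
      (((tendsto_ip ω _ _).const_mul _).congr fun n => ?_)
    simp [inner_smul_left, mul_comm]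

noncomputable instance : SeminormedAddCommGroup (Pre ω V) :=
  InnerProductSpace.Core.toSeminormedAddCommGroup (c := core ω V)

noncomputable instance : InnerProductSpace ℂ (Pre ω V) := InnerProductSpace.ofCore (core ω V)

/-- the ultraproduct -/
abbrev UP := SeparationQuotient (Pre ω V)

variable {V}

/-- the class of a bounded sequence -/
noncomputable def umk : Bd V →ₗ[ℂ] UP ω V :=
  (SeparationQuotient.mkCLM ℂ (Pre ω V)).toLinearMap ∘ₗ (toPre ω V).toLinearMap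

theorem mk_surjective : Function.Surjective (umk ω : Bd V → UP ω V) :=
  SeparationQuotient.surjective_mk.comp (toPre ω V).surjective

theorem tendsto_inner (x y : Bd V) :
    Tendsto (fun n => ⟪x.1 n, y.1 n⟫_ℂ) ω (𝓝 ⟪umk ω x, umk ω y⟫_ℂ) := tendsto_ip ω x y

theorem tendsto_norm_sq (x : Bd V) : Tendsto (fun n => ‖x.1 n‖ ^ 2) ω (𝓝 (‖umk ω x‖ ^ 2)) := by
  have := (Complex.continuous_re.tendsto _).comp (tendsto_inner ω x x)
  rw [← inner_self_eq_norm_sq (𝕜 := ℂ)]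
  exact this.congr fun n => inner_self_eq_norm_sq (𝕜 := ℂ) _

theorem tendsto_norm (x : Bd V) : Tendsto (fun n => ‖x.1 n‖) ω (𝓝 ‖umk ω x‖) := by
  simpa using (tendsto_norm_sq ω x).sqrt

theorem mk_eq_mk {x y : Bd V} (h : Tendsto (fun n => ‖x.1 n - y.1 n‖) ω (𝓝 0)) :
    umk ω x = umk ω y := by
  rw [← sub_eq_zero, ← map_sub, ← norm_eq_zero]
  exact tendsto_nhds_unique (tendsto_norm ω _) h

end defs

section map

variable {ω : Ultrafilter ℕ} {V V' : ℕ → Type*} [∀ n, NormedAddCommGroup (V n)]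
  [∀ n, InnerProductSpace ℂ (V n)] [∀ n, NormedAddCommGroup (V' n)]
  [∀ n, InnerProductSpace ℂ (V' n)]

/-- a family of contractions acting on bounded sequences -/
def app (T : ∀ n, V n →L[ℂ] V' n) (hT : ∀ n, ‖T n‖ ≤ 1) : Bd V →ₗ[ℂ] Bd V' where
  toFun x := ⟨fun n => T n (x.1 n), by
    obtain ⟨C, hC⟩ := x.2
    exact ⟨C, fun n => ((T n).le_of_opNorm_le (hT n) _).trans (by rw [one_mul]; exact hC n)⟩⟩
  map_add' x y := Subtype.ext (funext fun n => map_add (T n) _ _)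
  map_smul' c x := Subtype.ext (funext fun n => map_smul (T n) _ _)

@[simp] theorem app_apply (T : ∀ n, V n →L[ℂ] V' n) (hT : ∀ n, ‖T n‖ ≤ 1) (x : Bd V) (n : ℕ) :
    (app T hT x).1 n = T n (x.1 n) := rfl

theorem exists_lift {R M N P : Type*} [Ring R] [AddCommGroup M] [AddCommGroup N] [AddCommGroup P]
    [Module R M] [Module R N] [Module R P] (f : M →ₗ[R] N) (hf : Function.Surjective f)
    (g : M →ₗ[R] P) (h : ∀ x, f x = 0 → g x = 0) : ∃ E : N →ₗ[R] P, ∀ x, E (f x) = g x :=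
  ⟨(LinearMap.ker f).liftQ g h ∘ₗ (f.quotKerEquivOfSurjective hf).symm.toLinearMap, fun x => by
    simp [LinearMap.quotKerEquivOfSurjective_symm_apply]⟩

theorem exists_map (ω : Ultrafilter ℕ) (T : ∀ n, V n →L[ℂ] V' n) (hT : ∀ n, ‖T n‖ ≤ 1) :
    ∃ E : UP ω V →ₗ[ℂ] UP ω V', ∀ x, E (umk ω x) = umk ω (app T hT x) := by
  refine exists_lift (umk ω) (mk_surjective ω) (umk ω ∘ₗ app T hT) fun x hx => ?_
  have h := tendsto_norm ω x
  rw [hx, norm_zero] at h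
  refine norm_le_zero_iff.1 (le_of_tendsto_of_tendsto' (tendsto_norm ω (app T hT x)) h fun n => ?_)
  simpa using (T n).le_of_opNorm_le (hT n) (x.1 n)

/-- the induced map on ultraproducts -/
noncomputable def umap (ω : Ultrafilter ℕ) (T : ∀ n, V n →L[ℂ] V' n) (hT : ∀ n, ‖T n‖ ≤ 1) :
    UP ω V →ₗ[ℂ] UP ω V' := (exists_map ω T hT).choose

theorem umap_mk (T : ∀ n, V n →L[ℂ] V' n) (hT : ∀ n, ‖T n‖ ≤ 1) (x : Bd V) :
    umap ω T hT (umk ω x) = umk ω (app T hT x) := (exists_map ω T hT).choose_spec x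

theorem tendsto_of_op {W : ℕ → Type*} [∀ n, NormedAddCommGroup (W n)] [∀ n, NormedSpace ℂ (W n)]
    {T : ∀ n, V n →L[ℂ] W n} (h : Tendsto (fun n => ‖T n‖) ω (𝓝 0)) (x : Bd V) :
    Tendsto (fun n => ‖T n (x.1 n)‖) ω (𝓝 0) := by
  have := h.mul (tendsto_norm ω x)
  rw [zero_mul] at this
  exact squeeze_zero (fun _ => norm_nonneg _) (fun n => (T n).le_opNorm _) this

end map

section ar

/-- asymptotic unitary representations -/
structure AR (ω : Ultrafilter ℕ) (𝒢 : Type*) [Group 𝒢] (V : ℕ → Type*)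
    [∀ n, NormedAddCommGroup (V n)] [∀ n, InnerProductSpace ℂ (V n)]
    [∀ n, CompleteSpace (V n)] where
  ρ : ∀ n, 𝒢 → V n →L[ℂ] V n
  le : ∀ g n, ‖ρ n g‖ ≤ 1
  one : ∀ n, ρ n 1 = 1
  mul : ∀ g h, Tendsto (fun n => ‖ρ n (g * h) - ρ n g * ρ n h‖) ω (𝓝 0)
  star : ∀ g, Tendsto (fun n => ‖ρ n g⁻¹ - star (ρ n g)‖) ω (𝓝 0)

variable {ω : Ultrafilter ℕ} {𝒢 : Type*} [Group 𝒢] {V : ℕ → Type*}
  [∀ n, NormedAddCommGroup (V n)] [∀ n, InnerProductSpace ℂ (V n)] [∀ n, CompleteSpace (V n)]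
  (A : AR ω 𝒢 V)

/-- action on bounded sequences -/
def AR.app (g : 𝒢) : Bd V →ₗ[ℂ] Bd V := R73.app (fun n => A.ρ n g) (A.le g)

@[simp] theorem AR.app_apply (g : 𝒢) (x : Bd V) (n : ℕ) : (A.app g x).1 n = A.ρ n g (x.1 n) := rfl

/-- the limit representation -/
noncomputable def AR.rep : URep 𝒢 (UP ω V) where
  R :=
    { toFun := fun g => umap ω (fun n => A.ρ n g) (A.le g)
      map_one' := by
        ext x
        obtain ⟨x, rfl⟩ := mk_surjective ω x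
        rw [umap_mk]
        exact congrArg (umk ω) (Subtype.ext (funext fun n => by simp [A.one]))
      map_mul' := fun g h => by
        ext x
        obtain ⟨x, rfl⟩ := mk_surjective ω x
        rw [Module.End.mul_apply, umap_mk, umap_mk, umap_mk]
        exact mk_eq_mk ω (tendsto_of_op (A.mul g h) x) }
  adj g x y := by
    obtain ⟨x, rfl⟩ := mk_surjective ω x
    obtain ⟨y, rfl⟩ := mk_surjective ω y
    simp only [MonoidHom.coe_mk, OneHom.coe_mk, umap_mk]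
    have hs : ∀ n, ‖Star.star (A.ρ n g)‖ ≤ 1 := fun n => by rw [norm_star]; exact A.le g n
    rw [mk_eq_mk ω (x := R73.app (fun n => A.ρ n g⁻¹) (A.le g⁻¹) y)
      (y := R73.app (fun n => Star.star (A.ρ n g)) hs y) (tendsto_of_op (A.star g) y)]
    refine tendsto_nhds_unique (tendsto_inner ω _ _) ((tendsto_inner ω _ _).congr fun n => ?_)
    simp [ContinuousLinearMap.star_eq_adjoint, ContinuousLinearMap.adjoint_inner_right]

theorem AR.rep_mk (g : 𝒢) (x : Bd V) : A.rep.R g (umk ω x) = umk ω (A.app g x) := umap_mk _ _ _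

/-- the energy form at stage `n` -/
noncomputable def AR.q (p : ℕ) (s : ι → 𝒢) (z : 𝒢) (n : ℕ) (x : V n) : ℝ :=
  qf p (fun i j => A.ρ n (s i ^ j)) (fun j => A.ρ n (z ^ j)) x

variable {p : ℕ} {s : ι → 𝒢} {z : 𝒢}

theorem AR.tendsto_q (x : Bd V) :
    Tendsto (fun n => A.q p s z n (x.1 n)) ω (𝓝 (A.rep.q p s z (umk ω x))) := by
  have key : ∀ g, Tendsto (fun n => (⟪x.1 n, A.ρ n g (x.1 n)⟫_ℂ).re) ω
      (𝓝 (⟪umk ω x, A.rep.R g (umk ω x)⟫_ℂ).re) := fun g => by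
    rw [A.rep_mk]
    exact (Complex.continuous_re.tendsto _).comp (tendsto_inner ω x (A.app g x))
  exact (tendsto_finset_sum _ fun i _ => (tendsto_norm_sq ω x).sub
    ((tendsto_finset_sum _ fun j _ => key _).const_mul _)).add
    ((tendsto_finset_sum _ fun j _ => key _).const_mul _)

theorem AR.q_smul (n : ℕ) (c : ℝ) (x : V n) :
    A.q p s z n ((c : ℂ) • x) = c ^ 2 * A.q p s z n x := by
  have key : ∀ g, (⟪(c : ℂ) • x, A.ρ n g ((c : ℂ) • x)⟫_ℂ).re = c ^ 2 * (⟪x, A.ρ n g x⟫_ℂ).re := by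
    intro g
    rw [map_smul, inner_smul_left, inner_smul_right, Complex.conj_ofReal, ← mul_assoc,
      ← Complex.ofReal_mul, Complex.re_ofReal_mul, sq]
  simp only [AR.q, qf, key, norm_smul, Complex.norm_real, Real.norm_eq_abs, mul_pow, sq_abs,
    mul_add, mul_sum, mul_sub]
  congr 1
  · refine sum_congr rfl fun i _ => ?_
    congr 1
    exact sum_congr rfl fun j _ => by ring
  · exact sum_congr rfl fun j _ => by ring

theorem AR.le_q (n : ℕ) {x : V n} (hx : ‖x‖ = 1) : -1 ≤ A.q p s z n x := by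
  have key : ∀ g, |(⟪x, A.ρ n g x⟫_ℂ).re| ≤ 1 := fun g =>
    (Complex.abs_re_le_norm _).trans ((norm_inner_le_norm _ _).trans (by
      have := (A.ρ n g).le_of_opNorm_le (A.le g n) x
      simpa [hx] using this))
  have avg : ∀ g : ℕ → 𝒢, |(p : ℝ)⁻¹ * ∑ j ∈ range p, (⟪x, A.ρ n (g j) x⟫_ℂ).re| ≤ 1 := fun g => by
    rw [abs_mul, abs_of_nonneg (by positivity)]
    refine (mul_le_mul_of_nonneg_left ((abs_sum_le_sum_abs _ _).trans
      (sum_le_card_nsmul _ _ 1 fun j _ => key _)) (by positivity)).trans ?_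
    simp only [card_range, nsmul_eq_mul, mul_one]
    exact inv_mul_le_one_of_le₀ le_rfl (by positivity)
  have h1 : 0 ≤ ∑ i, (‖x‖ ^ 2 - (p : ℝ)⁻¹ * ∑ j ∈ range p, (⟪x, A.ρ n (s i ^ j) x⟫_ℂ).re) :=
    sum_nonneg fun i _ => by
      rw [hx, one_pow, sub_nonneg]
      exact (abs_le.1 (avg fun j => s i ^ j)).2
  have h2 := (abs_le.1 (avg fun j => z ^ j)).1
  simp only [AR.q, qf]
  linarith

theorem near_min {E : Type*} [NormedAddCommGroup E] [NormedSpace ℂ E] {q : E → ℝ}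
    (hs : ∀ (c : ℝ) x, q ((c : ℂ) • x) = c ^ 2 * q x) (hb : ∀ x, ‖x‖ = 1 → -1 ≤ q x) {δ ε : ℝ}
    (hε : 0 < ε) (h : ∃ x, q x < δ * ‖x‖ ^ 2) :
    ∃ x, ‖x‖ = 1 ∧ q x ≤ δ ∧ ∀ y, (q x - ε) * ‖y‖ ^ 2 ≤ q y := by
  have h0 : q 0 = 0 := by simpa using hs 0 0
  have hn : ∀ y : E, y ≠ 0 → ‖((‖y‖⁻¹ : ℝ) : ℂ) • y‖ = 1 ∧
      q y = q (((‖y‖⁻¹ : ℝ) : ℂ) • y) * ‖y‖ ^ 2 := fun y hy => by
    have := norm_ne_zero_iff.2 hy
    refine ⟨by simp [norm_smul, this], ?_⟩
    rw [hs]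
    field_simp
  obtain ⟨x₀, hx₀⟩ := h
  have hx0 : x₀ ≠ 0 := by rintro rfl; simp [h0] at hx₀
  set S := q '' {x | ‖x‖ = 1}
  have hS : BddBelow S := ⟨-1, by rintro _ ⟨x, hx, rfl⟩; exact hb x hx⟩
  have hle : ∀ x, ‖x‖ = 1 → sInf S ≤ q x := fun x hx => csInf_le hS ⟨x, hx, rfl⟩
  have h1 : sInf S < min δ (sInf S + ε) := by
    refine lt_min ((hle _ (hn x₀ hx0).1).trans_lt ?_) (by linarith)
    rw [(hn x₀ hx0).2] at hx₀
    exact lt_of_mul_lt_mul_right hx₀ (by positivity)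
  obtain ⟨_, ⟨x, hx, rfl⟩, hlt⟩ := exists_lt_of_csInf_lt (s := S) ⟨_, _, (hn x₀ hx0).1, rfl⟩ h1
  refine ⟨x, hx, (hlt.trans_le (min_le_left _ _)).le, fun y => ?_⟩
  by_cases hy : y = 0
  · simp [hy, h0]
  · rw [(hn y hy).2]
    have := hle _ (hn y hy).1
    have := hlt.trans_le (min_le_right _ _)
    exact mul_le_mul_of_nonneg_right (by linarith) (by positivity)

theorem AR.exists_fixed [Fact p.Prime] (hp : 25 ≤ p) (hr : Rel p s z) (hω : (ω : Filter ℕ) ≤ atTop)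
    {δ : ℝ} (hδ : δ < 1 / 5) (h : ∀ᶠ n in ω, ∃ x, A.q p s z n x < δ * ‖x‖ ^ 2) :
    ∃ x : UP ω V, ‖x‖ = 1 ∧ (∀ i, A.rep.R (s i) x = x) ∧ A.rep.P p z x = 0 := by
  have key : ∀ n, ∃ x : V n, ‖x‖ ≤ 1 ∧ ((∃ x, A.q p s z n x < δ * ‖x‖ ^ 2) →
      ‖x‖ = 1 ∧ A.q p s z n x ≤ δ ∧
        ∀ y, (A.q p s z n x - 1 / ((n : ℝ) + 1)) * ‖y‖ ^ 2 ≤ A.q p s z n y) := fun n => by
    by_cases hn : ∃ x, A.q p s z n x < δ * ‖x‖ ^ 2
    · obtain ⟨x, hx⟩ := near_min (A.q_smul n) (fun x => A.le_q n) (ε := 1 / ((n : ℝ) + 1))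
        (by positivity) hn
      exact ⟨x, hx.1.le, fun _ => hx⟩
    · exact ⟨0, by simp, fun h => (hn h).elim⟩
  choose x hx1 hx using key
  let ξ : Bd V := ⟨x, 1, hx1⟩
  have hn : ‖umk ω ξ‖ = 1 := tendsto_nhds_unique (tendsto_norm ω ξ)
    (tendsto_const_nhds.congr' (h.mono fun n hn => (hx n hn).1.symm))
  refine ⟨umk ω ξ, hn, A.rep.fixed_of_min hp hr hn
    ((le_of_tendsto (A.tendsto_q ξ) (h.mono fun n hn => (hx n hn).2.1)).trans_lt hδ) fun y => ?_⟩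
  obtain ⟨y, rfl⟩ := mk_surjective ω y
  have h1 := ((A.tendsto_q (p := p) (s := s) (z := z) ξ).sub
    (tendsto_one_div_add_atTop_nhds_zero_nat.mono_left hω)).mul (tendsto_norm_sq ω y)
  rw [sub_zero] at h1
  exact le_of_tendsto_of_tendsto h1 (A.tendsto_q y) (h.mono fun n hn => (hx n hn).2.2 _)

theorem AR.eventually_low {x : UP ω V} (hx : x ≠ 0) (hq : A.rep.q p s z x = 0) {δ : ℝ}
    (hδ : 0 < δ) : ∀ᶠ n in ω, ∃ x, A.q p s z n x < δ * ‖x‖ ^ 2 := by
  obtain ⟨x, rfl⟩ := mk_surjective ω x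
  have h := (A.tendsto_q (p := p) (s := s) (z := z) x).eventually_lt
    ((tendsto_norm_sq ω x).const_mul δ) (by
      rw [hq]; exact mul_pos hδ (pow_pos (norm_pos_iff.2 hx) 2))
  exact h.mono fun n hn => ⟨_, hn⟩

end ar

end Crest.Agent.R73
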