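import Crest.Agent.R73.Defs
import Crest.Prelude.Def_CStarEmbedding

/-!
# Row 73: existence of universal C⋆-algebras (task R73-Univ)

PLAN.  General lemma `exists_univ`: `F = FreeAlgebra ℂ (X ⊕ X)`, `ev w : F →ₐ[ℂ] B`
(`inl x ↦ w x`, `inr x ↦ star (w x)`).  Index type
`I = {n : F → ℝ // ∃ B (_ : CStarAlgebra B) (_ : Nontrivial B) w, P B w ∧ ∀ f, n f = ‖ev w f‖}`
(lives in `Type`); choose `(B i, w i)`; `𝓑 = lp B ∞` (C⋆-algebra instance: build
`CStarAlgebra (lp B ∞)` with `where` from `NormedRing`, `lp.inftyNormedAlgebra`, `lp.inftyStarRing`,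
`lp.inftyCStarRing`), `v x = (w i x)_i`, `A = (adjoin (range v)).topologicalClosure` (closed star
subalgebra, `StarSubalgebra.cstarAlgebra`).  `ev v : F → A` has dense range; for `(B, w)` with
`P B w`, `B` nontrivial: `‖ev w f‖ = ‖ev (w i) f‖ ≤ ‖ev v f‖`, so `ev w` extends by continuity
(`LinearMap.extendOfNorm` or `DenseRange`/`IsUniformInducing.extend`) to `φ : A → B`; multiplicative
and star preserving by density (`DenseRange.induction_on(₂)`).  `B` trivial: the zero map.
Separation: the coordinate evaluations.  Relations in `A` follow from separation.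
-/

set_option autoImplicit false

namespace Crest.Agent.R73

open Filter Topology Finset
open scoped InnerProductSpace commutatorElement ComplexConjugate

namespace Univ

open scoped ENNReal

/-- the product C⋆-algebra -/
@[reducible] noncomputable def lpCStar {I : Type} (B : I → Type) [∀ i, Nontrivial (B i)]
    [∀ i, CStarAlgebra (B i)] : CStarAlgebra (lp B ∞) where

attribute [local instance] lpCStar

/-- coordinate evaluation -/
def coord {I : Type} (B : I → Type) [∀ i, Nontrivial (B i)] [∀ i, CStarAlgebra (B i)] (i : I) :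
    lp B ∞ →⋆ₐ[ℂ] B i where
  toFun f := f i
  map_one' := rfl
  map_mul' _ _ := rfl
  map_zero' := rfl
  map_add' _ _ := rfl
  commutes' _ := rfl
  map_star' _ := rfl

variable {X : Type}

/-- evaluation of noncommutative ⋆-polynomials -/
noncomputable def ev {B : Type} [CStarAlgebra B] (w : X → B) : FreeAlgebra ℂ (X ⊕ X) →ₐ[ℂ] B :=
  FreeAlgebra.lift ℂ (Sum.elim w fun x => star (w x))

theorem map_ev {A B : Type} [CStarAlgebra A] [CStarAlgebra B] (φ : A →⋆ₐ[ℂ] B) (v : X → A)
    (f : FreeAlgebra ℂ (X ⊕ X)) : φ (ev v f) = ev (fun x => φ (v x)) f := by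
  have : (φ : A →ₐ[ℂ] B).comp (ev v) = ev fun x => φ (v x) := by
    ext (x | x) <;> simp [ev, map_star]
  exact DFunLike.congr_fun this f

theorem exists_star (f : FreeAlgebra ℂ (X ⊕ X)) :
    ∃ f', ∀ (B : Type) [CStarAlgebra B] (w : X → B), ev w f' = star (ev w f) := by
  induction f using FreeAlgebra.induction with
  | grade0 r => exact ⟨algebraMap _ _ (star r), fun B _ w => by
      rw [AlgHom.commutes, AlgHom.commutes, algebraMap_star_comm]⟩
  | grade1 x => exact ⟨FreeAlgebra.ι ℂ x.swap, fun B _ w => by rcases x with x | x <;> simp [ev]⟩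
  | mul a b ha hb =>
    obtain ⟨a', ha⟩ := ha
    obtain ⟨b', hb⟩ := hb
    exact ⟨b' * a', fun B _ w => by simp [ha, hb]⟩
  | add a b ha hb =>
    obtain ⟨a', ha⟩ := ha
    obtain ⟨b', hb⟩ := hb
    exact ⟨a' + b', fun B _ w => by simp [ha, hb]⟩

theorem ev_mem {B : Type} [CStarAlgebra B] (w : X → B) (f : FreeAlgebra ℂ (X ⊕ X)) :
    ev w f ∈ StarAlgebra.adjoin ℂ (Set.range w) := by
  have h : ∀ x, w x ∈ StarAlgebra.adjoin ℂ (Set.range w) := fun x =>
    StarAlgebra.subset_adjoin ℂ _ ⟨x, rfl⟩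
  induction f using FreeAlgebra.induction with
  | grade0 r => rw [AlgHom.commutes]; exact algebraMap_mem _ r
  | grade1 x =>
    rcases x with x | x
    · simpa [ev] using h x
    · simpa [ev] using star_mem (h x)
  | mul a b ha hb => rw [map_mul]; exact mul_mem ha hb
  | add a b ha hb => rw [map_add]; exact add_mem ha hb

theorem mem_range_ev {B : Type} [CStarAlgebra B] (w : X → B) {b : B}
    (hb : b ∈ StarAlgebra.adjoin ℂ (Set.range w)) : ∃ f, ev w f = b := by
  induction hb using StarAlgebra.adjoin_induction with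
  | mem x hx =>
    obtain ⟨x, rfl⟩ := hx
    exact ⟨FreeAlgebra.ι ℂ (.inl x), by simp [ev]⟩
  | algebraMap r => exact ⟨algebraMap _ _ r, AlgHom.commutes _ _⟩
  | add x y _ _ hx hy =>
    obtain ⟨f, rfl⟩ := hx
    obtain ⟨g, rfl⟩ := hy
    exact ⟨f + g, map_add _ _ _⟩
  | mul x y _ _ hx hy =>
    obtain ⟨f, rfl⟩ := hx
    obtain ⟨g, rfl⟩ := hy
    exact ⟨f * g, map_mul _ _ _⟩
  | star x _ hx =>
    obtain ⟨f, rfl⟩ := hx
    obtain ⟨f', h⟩ := exists_star f
    exact ⟨f', h B w⟩

theorem exists_ext {A B : Type} [CStarAlgebra A] [CStarAlgebra B] {v : X → A} {w : X → B}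
    (hd : DenseRange (ev v)) (h : ∀ f, ‖ev w f‖ ≤ ‖ev v f‖) :
    ∃ φ : A →⋆ₐ[ℂ] B, ∀ x, φ (v x) = w x := by
  let L : A →L[ℂ] B := (ev w).toLinearMap.extendOfNorm (ev v).toLinearMap
  have hL : ∀ f, L (ev v f) = ev w f := fun f =>
    LinearMap.extendOfNorm_eq (f := (ev w).toLinearMap) (e := (ev v).toLinearMap) hd
      ⟨1, fun f => by simpa using h f⟩ f
  have h1 : L 1 = 1 := by simpa using hL 1
  refine ⟨{ toFun := L
            map_one' := h1
            map_mul' := fun a b => ?_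
            map_zero' := map_zero L
            map_add' := map_add L
            commutes' := fun c => by
              rw [Algebra.algebraMap_eq_smul_one, map_smul, h1, Algebra.algebraMap_eq_smul_one]
            map_star' := fun a => ?_ }, fun x => ?_⟩
  · refine hd.induction_on₂ (p := fun a b => L (a * b) = L a * L b)
      (isClosed_eq (by fun_prop) (by fun_prop)) (fun f g => ?_) a b
    rw [← map_mul, hL, hL, hL, map_mul]
  · refine hd.induction_on (p := fun a => L (star a) = star (L a)) a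
      (isClosed_eq (by fun_prop) (by fun_prop)) fun f => ?_
    obtain ⟨f', hf⟩ := exists_star f
    rw [← hf, hL, hL, hf]
  · simpa [ev] using hL (FreeAlgebra.ι ℂ (.inl x))

end Univ

open Univ in
open scoped ENNReal in
theorem exists_univ (X : Type) (P : ∀ (B : Type) [CStarAlgebra B], (X → B) → Prop)
    (hb : ∀ (B : Type) [CStarAlgebra B] (w : X → B), P B w → ∀ x, ‖w x‖ ≤ 1) :
    ∃ (A : Type) (_ : CStarAlgebra A) (v : X → A),
      (StarAlgebra.adjoin ℂ (Set.range v)).topologicalClosure = ⊤ ∧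
      (∀ (B : Type) [CStarAlgebra B] (w : X → B), P B w →
        ∃ φ : A →⋆ₐ[ℂ] B, ∀ x, φ (v x) = w x) ∧
      ∀ a a' : A, (∀ (B : Type) [CStarAlgebra B] (w : X → B), P B w →
        ∀ φ : A →⋆ₐ[ℂ] B, (∀ x, φ (v x) = w x) → φ a = φ a') → a = a' := by
  let I : Type := {n : FreeAlgebra ℂ (X ⊕ X) → ℝ // ∃ (B : Type) (_ : CStarAlgebra B)
    (_ : Nontrivial B) (w : X → B), P B w ∧ ∀ f, n f = ‖ev w f‖}
  choose B instB nt w hP hn using fun i : I => i.2
  letI := lpCStar B
  let v₀ : X → lp B ∞ := fun x => ⟨fun i => w i x, memℓp_infty ⟨1, by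
    rintro _ ⟨i, rfl⟩
    exact hb _ _ (hP i) x⟩⟩
  let S := (StarAlgebra.adjoin ℂ (Set.range v₀)).topologicalClosure
  haveI : IsClosed (S : Set (lp B ∞)) := StarSubalgebra.isClosed_topologicalClosure _
  let v : X → S := fun x => ⟨v₀ x, StarSubalgebra.le_topologicalClosure _
    (StarAlgebra.subset_adjoin ℂ _ ⟨x, rfl⟩)⟩
  have hv : ∀ f, (ev v f : lp B ∞) = ev v₀ f := fun f => map_ev S.subtype v f
  have hd : DenseRange (ev v) := by
    refine Subtype.dense_iff.2 (closure_mono fun b hb => ?_)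
    obtain ⟨f, rfl⟩ := mem_range_ev v₀ hb
    exact ⟨_, ⟨f, rfl⟩, hv f⟩
  refine ⟨S, inferInstance, v, ?_, fun B' _ w' hw' => ?_, fun a a' h => ?_⟩
  · refine eq_top_iff.2 fun a _ => closure_mono ?_ (hd a)
    rintro _ ⟨f, rfl⟩
    exact ev_mem v f
  · refine exists_ext hd fun f => ?_
    rcases subsingleton_or_nontrivial B' with h0 | h0
    · rw [Subsingleton.elim (ev w' f) 0, norm_zero]
      exact norm_nonneg _
    let i : I := ⟨fun f => ‖ev w' f‖, B', inferInstance, h0, w', hw', fun _ => rfl⟩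
    have e1 : ‖ev w' f‖ = ‖ev (w i) f‖ := hn i f
    have e2 : (ev v₀ f) i = ev (w i) f := map_ev (coord B i) v₀ f
    rw [e1, ← e2, ← hv]
    exact lp.norm_apply_le_norm ENNReal.top_ne_zero _ i
  · refine Subtype.ext (lp.ext (funext fun i => ?_))
    exact h (B i) (w i) (hP i) ((coord B i).comp S.subtype) fun x => rfl

open Crest.AnalysisR.CStarEmbedding in
theorem exists_group_cstar (Γ : Type) [Group Γ] :
    ∃ (A : Type) (_ : CStarAlgebra A) (u : Γ →* unitary A), IsFullGroupCStar A u := by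
  obtain ⟨A, _, v, h1, h2, h3⟩ := exists_univ Γ
    (fun B _ w => ∃ u : Γ →* unitary B, ∀ g, w g = u g) (by
      rintro B _ w ⟨u, hu⟩ g
      rw [hu]
      rcases subsingleton_or_nontrivial B with h0 | h0
      · rw [Subsingleton.elim (u g : B) 0, norm_zero]
        exact zero_le_one
      · exact (CStarRing.norm_coe_unitary _).le)
  have e1 : ∀ g, v g ∈ unitary A := fun g =>
    ⟨h3 _ _ fun B _ w ⟨u, hu⟩ φ hφ => by
      rw [map_mul, map_star, hφ, hu, map_one]; exact (u g).2.1,
     h3 _ _ fun B _ w ⟨u, hu⟩ φ hφ => by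
      rw [map_mul, map_star, hφ, hu, map_one]; exact (u g).2.2⟩
  refine ⟨A, inferInstance, MonoidHom.mk' (fun g => ⟨v g, e1 g⟩) fun g g' => Subtype.ext ?_, h1,
    fun B _ u => h2 B _ ⟨u, fun _ => rfl⟩⟩
  exact h3 _ _ fun B _ w ⟨u, hu⟩ φ hφ => by
    change φ (v (g * g')) = φ (v g * v g')
    rw [map_mul, hφ, hφ, hφ, hu, hu, hu, map_mul]; rfl

open Crest.AnalysisR.CStarEmbedding in
theorem exists_cuntz :
    ∃ (O : Type) (_ : CStarAlgebra O) (s₁ s₂ : O), IsCuntzTwo O s₁ s₂ := by
  obtain ⟨A, _, v, h1, h2, h3⟩ := exists_univ Bool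
    (fun B _ w => (∀ b, star (w b) * w b = 1) ∧
      w true * star (w true) + w false * star (w false) = 1) (by
      rintro B _ w ⟨hw, -⟩ b
      have := CStarRing.norm_star_mul_self (x := w b)
      rw [hw] at this
      nlinarith [(IsStarProjection.one B).norm_le, norm_nonneg (w b)])
  have e1 : ∀ b, star (v b) * v b = 1 := fun b => h3 _ _ fun B _ w hw φ hφ => by
    rw [map_mul, map_star, hφ, map_one, hw.1]
  refine ⟨A, inferInstance, v true, v false, e1 _, e1 _, h3 _ _ fun B _ w hw φ hφ => ?_, ?_,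
    fun B _ t₁ t₂ a1 a2 a3 => ?_⟩
  · simp only [map_add, map_mul, map_star, hφ, map_one, hw.2]
  · rw [← h1]
    congr 2
    ext a
    simp [eq_comm, or_comm]
  · obtain ⟨φ, hφ⟩ := h2 B (fun b => cond b t₁ t₂) ⟨fun b => by cases b <;> assumption, a3⟩
    exact ⟨φ, hφ true, hφ false⟩

end Crest.Agent.R73
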